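import Vale.Agent.P084.U.Defs

/-! Assembly: if the good points are dense in `S_E` then `f` is the restriction of a linear map. -/

namespace Vale.Agent.P084

open Metric Set

set_option linter.unusedSectionVars false

universe u v w

variable {E : Type u} {F : Type v} {W : Type w}
  [NormedAddCommGroup E] [NormedSpace ℝ E] [NormedAddCommGroup F] [NormedSpace ℝ F]
  [NormedAddCommGroup W] [NormedSpace ℝ W]

variable {f : E × F → W}

/-- UA1.  Copy of `side_zero` (Sc3.lean): `‖f (0, s) - f ((ε/2) • a, s)‖ = ε/2` and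
`f ((ε/2) • a, s) = (ε/2) • f (a, 0) + A s`, so `‖f (0, s) - A s‖ ≤ ε` for all small `ε`. -/
lemma good_zero (hf : SphIso f) {a : E} (ha : ‖a‖ = 1) (A : F →L[ℝ] W)
    (hA3 : ∀ (t : ℝ) (s : F), 0 < t → t < 1 → ‖s‖ = 1 → f (t • a, s) = t • f (a, 0) + A s)
    {s : F} (hs : ‖s‖ = 1) : f (0, s) = A s := by
  apply eq_of_forall_norm_le
  intro ε hε hε1
  have hn : ‖(ε / 2) • a‖ = ε / 2 := by
    rw [norm_smul, ha, mul_one, Real.norm_of_nonneg (by positivity)]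
  have hq : ‖(((ε / 2) • a, s) : E × F)‖ = 1 := norm_side (by rw [hn]; linarith) hs
  have hp : ‖((0, s) : E × F)‖ = 1 := norm_side (by simp) hs
  have h2 := hA3 (ε / 2) s (by positivity) (by linarith) hs
  have e1 : f (0, s) - A s = (f (0, s) - f ((ε / 2) • a, s)) + (ε / 2) • f (a, 0) := by
    rw [h2]; abel
  rw [e1]
  have h3 := norm_add_le (f (0, s) - f ((ε / 2) • a, s)) ((ε / 2) • f (a, 0))
  rw [hf.iso _ _ hp hq, pnrm_sub, sub_self, norm_zero, zero_sub, norm_neg, hn,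
    max_eq_left (by positivity), norm_smul, hf.norm _ (norm_face ha (by simp)), mul_one,
    Real.norm_of_nonneg (by positivity)] at h3
  linarith

/-- UA2.  All good points have the same linear part.  Sketch: take `A` from `hg0`.  If `A'` belongs
to another good point then `A' s = f (0, s) = A s` for unit vectors `s` (`good_zero`), so `A' = A`
(scale: `u = ‖u‖ • (‖u‖⁻¹ • u)`, lemma `unit_of_ne` is in Sc4.lean, not imported here; redo it). -/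
lemma good_common (hf : SphIso f) {a0 : E} (ha0 : ‖a0‖ = 1) (hg0 : GoodPt f a0) :
    ∃ A : F →L[ℝ] W, (∀ u, ‖A u‖ = ‖u‖) ∧ (∀ s, ‖s‖ = 1 → f (0, s) = A s) ∧
      ∀ a, ‖a‖ = 1 → GoodPt f a → (∀ u, ‖u‖ ≤ 1 → f (a, u) = f (a, 0) + A u) ∧
        ∀ (t : ℝ) (s : F), 0 < t → t < 1 → ‖s‖ = 1 → f (t • a, s) = t • f (a, 0) + A s := by
  obtain ⟨A, hA1, hA2, hA3⟩ := hg0
  have hz : ∀ s, ‖s‖ = 1 → f (0, s) = A s := fun s hs => good_zero hf ha0 A hA3 hs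
  refine ⟨A, hA1, hz, ?_⟩
  intro a ha hg
  obtain ⟨A', hA1', hA2', hA3'⟩ := hg
  have hz' : ∀ s, ‖s‖ = 1 → f (0, s) = A' s := fun s hs => good_zero hf ha A' hA3' hs
  have hEq : A' = A := by
    ext u
    by_cases hu : u = 0
    · rw [hu, map_zero, map_zero]
    have hnu : 0 < ‖u‖ := norm_pos_iff.mpr hu
    have h1 : ‖‖u‖⁻¹ • u‖ = 1 := by
      rw [norm_smul, norm_inv, norm_norm, inv_mul_cancel₀ hnu.ne']
    have h2 : A' (‖u‖⁻¹ • u) = A (‖u‖⁻¹ • u) := by rw [← hz' _ h1, hz _ h1]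
    rw [map_smul, map_smul] at h2
    exact smul_right_injective W (inv_ne_zero hnu.ne') h2
  rw [hEq] at hA2' hA3'
  exact ⟨hA2', hA3'⟩

/-- UA3.  Sketch.  `A` from `good_common` (a good point exists by `hgood` and `hEn`).
`G x = ‖x‖ • f (‖x‖⁻¹ • x, 0)` (compare `sc_split` in Sc4.lean for `G 0 = 0` and homogeneity).
Let `z = (x, u)`, `‖z‖ = 1` (`pnrm`).
* `‖x‖ = 1`: for `ε > 0` take a good `a` with `‖a - x‖ < ε`; `f (a, u) = f (a, 0) + A u`,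
  `‖f (a, u) - f (x, u)‖ = ‖a - x‖`, `‖f (a, 0) - f (x, 0)‖ = ‖a - x‖` (`hf.iso`, `pnrm_sub`), so
  `‖f (x, u) - (f (x, 0) + A u)‖ ≤ 2 ε`; conclude with `eq_of_forall_norm_le` or directly.
* `0 < ‖x‖ < 1`, so `‖u‖ = 1`: put `t = ‖x‖`, `e = t⁻¹ • x`; for a good `a` with `‖a - e‖ < ε`:
  `f (t • a, u) = t • f (a, 0) + A u`, `‖f (t • a, u) - f (x, u)‖ = t ‖a - e‖`,
  `‖t • f (a, 0) - t • f (e, 0)‖ = t ‖a - e‖`.
* `x = 0`: `f (0, u) = A u`. -/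
lemma asm_split (hf : SphIso f)
    (hgood : ∀ x : E, ‖x‖ = 1 → ∀ ε : ℝ, 0 < ε → ∃ a : E, ‖a‖ = 1 ∧ ‖a - x‖ < ε ∧ GoodPt f a)
    (hEn : ∃ e : E, ‖e‖ = 1) :
    ∃ (G : E → W) (A : F →L[ℝ] W), (∀ u, ‖A u‖ = ‖u‖) ∧ G 0 = 0 ∧
      (∀ (l : ℝ) (x : E), 0 < l → G (l • x) = l • G x) ∧
      ∀ z : E × F, ‖z‖ = 1 → f z = G z.1 + A z.2 := by
  obtain ⟨es, hes⟩ := hEn
  obtain ⟨a0, ha0, -, hg0⟩ := hgood es hes 1 one_pos
  obtain ⟨A, hAn, hA0, hAg⟩ := good_common hf ha0 hg0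
  let G : E → W := fun x => ‖x‖ • f (‖x‖⁻¹ • x, 0)
  have hGdef : ∀ x, G x = ‖x‖ • f (‖x‖⁻¹ • x, 0) := fun x => rfl
  have hG1 : ∀ e : E, ‖e‖ = 1 → G e = f (e, 0) := by
    intro e he
    rw [hGdef, he, inv_one, one_smul, one_smul]
  have hG0 : G 0 = 0 := by rw [hGdef, norm_zero, zero_smul]
  have hGpos : ∀ (l : ℝ) (x : E), 0 < l → G (l • x) = l • G x := by
    intro l x hl
    rw [hGdef, hGdef, norm_smul, Real.norm_of_nonneg hl.le, smul_smul, smul_smul, mul_inv,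
      mul_assoc, mul_comm ‖x‖⁻¹ l, ← mul_assoc, inv_mul_cancel₀ hl.ne', one_mul]
  -- closing lemma
  have hclose : ∀ p q : W, (∀ ε : ℝ, 0 < ε → ‖p - q‖ ≤ 2 * ε) → p = q := by
    intro p q h
    by_contra hne
    have hpos : 0 < ‖p - q‖ := norm_pos_iff.mpr (sub_ne_zero.mpr hne)
    have := h (‖p - q‖ / 4) (by positivity)
    linarith
  refine ⟨G, A, hAn, hG0, hGpos, ?_⟩
  rintro ⟨x, u⟩ hz
  change f (x, u) = G x + A u
  have hz' := hz
  rw [pnrm] at hz'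
  have hx1 : ‖x‖ ≤ 1 := hz' ▸ le_max_left _ _
  have hu1 : ‖u‖ ≤ 1 := hz' ▸ le_max_right _ _
  rcases lt_or_eq_of_le hx1 with h | h
  · have hu : ‖u‖ = 1 := by
      rcases max_choice ‖x‖ ‖u‖ with h' | h'
      · rw [h'] at hz'; linarith
      · rw [h'] at hz'; exact hz'
    by_cases h0 : x = 0
    · rw [h0, hG0, zero_add]
      exact hA0 u hu
    · have hpos : 0 < ‖x‖ := norm_pos_iff.mpr h0
      have h1 : ‖‖x‖⁻¹ • x‖ = 1 := by
        rw [norm_smul, norm_inv, norm_norm, inv_mul_cancel₀ hpos.ne']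
      have h2 : x = ‖x‖ • (‖x‖⁻¹ • x) := by
        rw [smul_smul, mul_inv_cancel₀ hpos.ne', one_smul]
      set t : ℝ := ‖x‖ with ht
      set e : E := t⁻¹ • x with he
      rw [hGdef, ← ht, ← he]
      apply hclose
      intro ε hε
      obtain ⟨a, ha, hae, hga⟩ := hgood e h1 ε hε
      obtain ⟨-, hs⟩ := hAg a ha hga
      have hs' := hs t u hpos h hu
      have nta : ‖t • a‖ ≤ 1 := by
        rw [norm_smul, ha, mul_one, Real.norm_of_nonneg hpos.le]; exact h.le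
      have d1 : ‖f (x, u) - f (t • a, u)‖ = t * ‖a - e‖ := by
        rw [hf.iso _ _ hz (norm_side nta hu), pnrm_sub, sub_self, norm_zero,
          max_eq_left (norm_nonneg _)]
        conv_lhs => rw [h2]
        rw [← smul_sub, norm_smul, Real.norm_of_nonneg hpos.le, norm_sub_rev]
      have d2 : ‖t • f (a, 0) - t • f (e, 0)‖ = t * ‖a - e‖ := by
        rw [← smul_sub, norm_smul, Real.norm_of_nonneg hpos.le,
          hf.iso _ _ (norm_face ha (by simp)) (norm_face h1 (by simp)), pnrm_sub, sub_self,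
          norm_zero, max_eq_left (norm_nonneg _)]
      have e1 : f (x, u) - (t • f (e, 0) + A u)
          = (f (x, u) - f (t • a, u)) + (t • f (a, 0) - t • f (e, 0)) := by
        rw [hs']; abel
      rw [e1]
      calc ‖(f (x, u) - f (t • a, u)) + (t • f (a, 0) - t • f (e, 0))‖
          ≤ ‖f (x, u) - f (t • a, u)‖ + ‖t • f (a, 0) - t • f (e, 0)‖ := norm_add_le _ _
        _ = t * ‖a - e‖ + t * ‖a - e‖ := by rw [d1, d2]
        _ ≤ 2 * ε := by nlinarith [norm_nonneg (a - e)]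
  · rw [hG1 x h]
    apply hclose
    intro ε hε
    obtain ⟨a, ha, hae, hga⟩ := hgood x h ε hε
    obtain ⟨hl, -⟩ := hAg a ha hga
    have hl' := hl u hu1
    have d1 : ‖f (x, u) - f (a, u)‖ = ‖a - x‖ := by
      rw [hf.iso _ _ hz (norm_face ha hu1), pnrm_sub, sub_self, norm_zero,
        max_eq_left (norm_nonneg _), norm_sub_rev]
    have d2 : ‖f (a, 0) - f (x, 0)‖ = ‖a - x‖ := by
      rw [hf.iso _ _ (norm_face ha (by simp)) (norm_face h (by simp)), pnrm_sub, sub_self,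
        norm_zero, max_eq_left (norm_nonneg _)]
    have e1 : f (x, u) - (f (x, 0) + A u) = (f (x, u) - f (a, u)) + (f (a, 0) - f (x, 0)) := by
      rw [hl']; abel
    rw [e1]
    calc ‖(f (x, u) - f (a, u)) + (f (a, 0) - f (x, 0))‖
        ≤ ‖f (x, u) - f (a, u)‖ + ‖f (a, 0) - f (x, 0)‖ := norm_add_le _ _
      _ = ‖a - x‖ + ‖a - x‖ := by rw [d1, d2]
      _ ≤ 2 * ε := by linarith

/-- UA4.  Copy of `hΦnorm`, `hΦiso`, `hΦsurj` in `sc_raw` (Sc4.lean); homogeneity is only needed for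
positive factors. -/
lemma fin_basic (hf : SphIso f) {G : E → W} {A : F →L[ℝ] W} (hG0 : G 0 = 0)
    (hGpos : ∀ (l : ℝ) (x : E), 0 < l → G (l • x) = l • G x)
    (hfz : ∀ z : E × F, ‖z‖ = 1 → f z = G z.1 + A z.2) :
    (∀ z : E × F, ‖G z.1 + A z.2‖ = ‖z‖) ∧
    (∀ z z' : E × F, ‖z‖ = ‖z'‖ → ‖(G z.1 + A z.2) - (G z'.1 + A z'.2)‖ = ‖z - z'‖) ∧
    (∀ y : W, ∃ z : E × F, G z.1 + A z.2 = y) := by
  have unit : ∀ {V : Type (max u v)} [NormedAddCommGroup V] [NormedSpace ℝ V] {z : V}, z ≠ 0 →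
      ‖‖z‖⁻¹ • z‖ = 1 ∧ z = ‖z‖ • (‖z‖⁻¹ • z) := by
    intro V _ _ z hz
    have hpos : 0 < ‖z‖ := norm_pos_iff.mpr hz
    constructor
    · rw [norm_smul, norm_inv, norm_norm, inv_mul_cancel₀ hpos.ne']
    · rw [smul_smul, mul_inv_cancel₀ hpos.ne', one_smul]
  have unitW : ∀ {z : W}, z ≠ 0 →
      ‖‖z‖⁻¹ • z‖ = 1 ∧ z = ‖z‖ • (‖z‖⁻¹ • z) := by
    intro z hz
    have hpos : 0 < ‖z‖ := norm_pos_iff.mpr hz
    constructor
    · rw [norm_smul, norm_inv, norm_norm, inv_mul_cancel₀ hpos.ne']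
    · rw [smul_smul, mul_inv_cancel₀ hpos.ne', one_smul]
  let Φ : E × F → W := fun z => G z.1 + A z.2
  have hΦdef : ∀ z, Φ z = G z.1 + A z.2 := fun z => rfl
  have hΦs : ∀ (l : ℝ) (z : E × F), 0 < l → Φ (l • z) = l • Φ z := by
    intro l z hl
    rw [hΦdef, hΦdef, Prod.smul_fst, Prod.smul_snd, hGpos l _ hl, map_smul, smul_add]
  have hΦ0 : Φ 0 = 0 := by
    rw [hΦdef]
    simp [hG0]
  have hΦnorm : ∀ z, ‖Φ z‖ = ‖z‖ := by
    intro z
    by_cases h0 : z = 0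
    · rw [h0, hΦ0, norm_zero, norm_zero]
    · obtain ⟨h1, h2⟩ := unit h0
      have hpos : 0 < ‖z‖ := norm_pos_iff.mpr h0
      have h3 : Φ z = ‖z‖ • Φ (‖z‖⁻¹ • z) := by rw [← hΦs _ _ hpos, ← h2]
      rw [h3, norm_smul, norm_norm, hΦdef, ← hfz _ h1, hf.norm _ h1, mul_one]
  have hΦiso : ∀ z z', ‖z‖ = ‖z'‖ → ‖Φ z - Φ z'‖ = ‖z - z'‖ := by
    intro z z' hzz
    by_cases h0 : z = 0
    · have h0' : z' = 0 := by
        rw [h0, norm_zero] at hzz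
        exact norm_eq_zero.mp hzz.symm
      rw [h0, h0', sub_self, sub_self, norm_zero, norm_zero]
    · have hpos : 0 < ‖z‖ := norm_pos_iff.mpr h0
      have h0' : z' ≠ 0 := by
        intro h
        rw [h, norm_zero] at hzz
        linarith
      obtain ⟨h1, h2⟩ := unit h0
      obtain ⟨h1', h2'⟩ := unit h0'
      rw [← hzz] at h1' h2'
      have h3 : Φ z - Φ z' = ‖z‖ • (f (‖z‖⁻¹ • z) - f (‖z‖⁻¹ • z')) := by
        rw [hfz _ h1, hfz _ h1', ← hΦdef, ← hΦdef, smul_sub, ← hΦs _ _ hpos, ← hΦs _ _ hpos,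
          ← h2, ← h2']
      rw [h3, norm_smul, norm_norm, hf.iso _ _ h1 h1', ← smul_sub, norm_smul, norm_inv, norm_norm,
        ← mul_assoc, mul_inv_cancel₀ hpos.ne', one_mul]
  have hΦsurj : ∀ y : W, ∃ z, Φ z = y := by
    intro y
    by_cases h0 : y = 0
    · exact ⟨0, by rw [hΦ0, h0]⟩
    · obtain ⟨h1, h2⟩ := unitW h0
      have hpos : 0 < ‖y‖ := norm_pos_iff.mpr h0
      obtain ⟨z, hz, hzy⟩ := hf.surj _ h1
      refine ⟨‖y‖ • z, ?_⟩
      rw [hΦs _ _ hpos, hΦdef, ← hfz z hz, hzy, ← h2]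
  exact ⟨hΦnorm, hΦiso, hΦsurj⟩

/-- UA5.  Copy of `hGiso` in `sc_raw`: compare `(x, R • s)` and `(x', R • s)`,
`R = max ‖x‖ ‖x'‖ + 1`. -/
lemma fin_Giso (hFn : ∃ s : F, ‖s‖ = 1) {G : E → W} {A : F →L[ℝ] W}
    (hiso : ∀ z z' : E × F, ‖z‖ = ‖z'‖ → ‖(G z.1 + A z.2) - (G z'.1 + A z'.2)‖ = ‖z - z'‖) :
    ∀ x x' : E, ‖G x - G x'‖ = ‖x - x'‖ := by
  obtain ⟨s, hs⟩ := hFn
  intro x x'
  have hR0 : 0 ≤ max ‖x‖ ‖x'‖ + 1 := by positivity
  have hRs : ‖(max ‖x‖ ‖x'‖ + 1) • s‖ = max ‖x‖ ‖x'‖ + 1 := by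
    rw [norm_smul, hs, mul_one, Real.norm_of_nonneg hR0]
  have h1 : ‖((x, (max ‖x‖ ‖x'‖ + 1) • s) : E × F)‖ = max ‖x‖ ‖x'‖ + 1 := by
    rw [Prod.norm_def]
    simp only
    rw [hRs]
    exact max_eq_right (by linarith [le_max_left ‖x‖ ‖x'‖])
  have h2 : ‖((x', (max ‖x‖ ‖x'‖ + 1) • s) : E × F)‖ = max ‖x‖ ‖x'‖ + 1 := by
    rw [Prod.norm_def]
    simp only
    rw [hRs]
    exact max_eq_right (by linarith [le_max_right ‖x‖ ‖x'‖])
  have h3 := hiso (x, (max ‖x‖ ‖x'‖ + 1) • s) (x', (max ‖x‖ ‖x'‖ + 1) • s) (by rw [h1, h2])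
  simp only [add_sub_add_right_eq_sub] at h3
  rw [h3, Prod.norm_def]
  simp

/-- UA5.  Sketch: `G x' + A u' = - G x` by `hsurj`.  `R₀ := ‖(x', u')‖ = ‖G x‖ = ‖(x, 0)‖ = ‖x‖`.
If `u' ≠ 0` put `u'' = -(R₀ / ‖u'‖) • u'`, `‖(0, u'')‖ = R₀`.  By `hiso`
`‖(G 0 + A u'') - (G x' + A u')‖ = max ‖x'‖ ‖u'' - u'‖ ≥ R₀ + ‖u'‖`, while the left side is
`‖G x + A u''‖ = ‖(x, u'')‖ = R₀`.  Contradiction; so `u' = 0`. -/
lemma fin_neg {G : E → W} {A : F →L[ℝ] W} (hG0 : G 0 = 0)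
    (hnorm : ∀ z : E × F, ‖G z.1 + A z.2‖ = ‖z‖)
    (hiso : ∀ z z' : E × F, ‖z‖ = ‖z'‖ → ‖(G z.1 + A z.2) - (G z'.1 + A z'.2)‖ = ‖z - z'‖)
    (hsurj : ∀ y : W, ∃ z : E × F, G z.1 + A z.2 = y) :
    ∀ x : E, ∃ x' : E, G x' = - G x := by
  intro x
  obtain ⟨⟨x', u'⟩, h⟩ := hsurj (- G x)
  simp only at h
  refine ⟨x', ?_⟩
  by_cases hu : u' = 0
  · rw [hu, map_zero, add_zero] at h
    exact h
  exfalso
  have hnu : 0 < ‖u'‖ := norm_pos_iff.mpr hu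
  have hx0 : ‖G x‖ = ‖x‖ := by
    have := hnorm (x, 0)
    simp only [map_zero, add_zero] at this
    rw [this, Prod.norm_def]
    simp
  have hR : ‖((x', u') : E × F)‖ = ‖x‖ := by
    rw [← hnorm (x', u')]
    simp only
    rw [h, norm_neg, hx0]
  have hn'' : ‖(-(‖x‖ / ‖u'‖)) • u'‖ = ‖x‖ := by
    rw [norm_smul, norm_neg, Real.norm_of_nonneg (by positivity)]
    field_simp
  have h0 : ‖((0, (-(‖x‖ / ‖u'‖)) • u') : E × F)‖ = ‖x‖ := by
    rw [Prod.norm_def]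
    simp only
    rw [hn'', norm_zero]
    exact max_eq_right (norm_nonneg _)
  have h1 := hiso (0, (-(‖x‖ / ‖u'‖)) • u') (x', u') (by rw [h0, hR])
  simp only at h1
  rw [h, hG0, zero_add, sub_neg_eq_add, add_comm] at h1
  have h2 := hnorm (x, (-(‖x‖ / ‖u'‖)) • u')
  simp only at h2
  rw [h2] at h1
  have h3 : ‖((x, (-(‖x‖ / ‖u'‖)) • u') : E × F)‖ = ‖x‖ := by
    rw [Prod.norm_def]
    simp only
    rw [hn'', max_self]
  rw [h3] at h1
  have h4 : ‖x‖ + ‖u'‖ ≤ ‖((0, (-(‖x‖ / ‖u'‖)) • u') : E × F) - (x', u')‖ := by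
    rw [Prod.norm_def]
    refine le_trans ?_ (le_max_right _ _)
    simp only [Prod.snd_sub]
    have e : (-(‖x‖ / ‖u'‖)) • u' - u' = (-(‖x‖ / ‖u'‖ + 1)) • u' := by
      rw [neg_smul, neg_smul, add_smul, one_smul]
      abel
    rw [e, norm_smul, norm_neg, Real.norm_of_nonneg (by positivity)]
    have : (‖x‖ / ‖u'‖ + 1) * ‖u'‖ = ‖x‖ + ‖u'‖ := by field_simp
    rw [this]
  linarith

/-- UA6.  Copy of `hclosed` in `sc_raw` with `-x2` replaced by a point `x2'` with `G x2' = - G x2`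
(`‖x2'‖ = ‖x2‖` by `hnorm` at `(x2', 0)`, `(x2, 0)`). -/
lemma fin_add {G : E → W} {A : F →L[ℝ] W}
    (hnorm : ∀ z : E × F, ‖G z.1 + A z.2‖ = ‖z‖)
    (hiso : ∀ z z' : E × F, ‖z‖ = ‖z'‖ → ‖(G z.1 + A z.2) - (G z'.1 + A z'.2)‖ = ‖z - z'‖)
    (hsurj : ∀ y : W, ∃ z : E × F, G z.1 + A z.2 = y)
    (hneg : ∀ x : E, ∃ x' : E, G x' = - G x) :
    ∀ x1 x2 : E, ∃ x' : E, G x' = G x1 + G x2 := by
  intro x1 x2
  obtain ⟨⟨x', u'⟩, hz⟩ := hsurj (G x1 + G x2)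
  change G x' + A u' = G x1 + G x2 at hz
  obtain ⟨y2, hy2⟩ := hneg x2
  have hy2n : ‖y2‖ = ‖x2‖ := by
    have h1 := hnorm (y2, 0)
    have h2 := hnorm (x2, 0)
    simp only [map_zero, add_zero, pnrm, norm_zero] at h1 h2
    rw [max_eq_left (norm_nonneg _)] at h1 h2
    rw [← h1, ← h2, hy2, norm_neg]
  have hu' : u' = 0 := by
    by_contra hne
    have hpos : 0 < ‖u'‖ := norm_pos_iff.mpr hne
    set R : ℝ := ‖x1‖ + ‖x2‖ + 1 with hR
    have hRpos : 0 < R := by positivity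
    set κ : ℝ := R / ‖u'‖ with hκ
    have hκpos : 0 < κ := by positivity
    have hκu : κ * ‖u'‖ = R := by rw [hκ, div_mul_cancel₀ _ hpos.ne']
    have hn : ‖κ • u'‖ = R := by rw [norm_smul, Real.norm_of_nonneg hκpos.le, hκu]
    have n1 : ‖((x1, κ • u') : E × F)‖ = R := by
      rw [pnrm, hn]; exact max_eq_right (by rw [hR]; linarith [norm_nonneg x2])
    have n2 : ‖((y2, -(κ • u')) : E × F)‖ = R := by
      rw [pnrm, hy2n, norm_neg, hn]; exact max_eq_right (by rw [hR]; linarith [norm_nonneg x1])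
    have h1 := hiso (x1, κ • u') (y2, -(κ • u')) (by rw [n1, n2])
    rw [pnrm_sub] at h1
    have e1 : G x1 + A (κ • u') - (G y2 + A (-(κ • u'))) = G x' + A ((1 + 2 * κ) • u') := by
      rw [hy2, map_neg, map_smul, map_smul]
      have : G x' = G x1 + G x2 - A u' := by rw [← hz]; abel
      rw [this]; module
    change ‖G x1 + A (κ • u') - (G y2 + A (-(κ • u')))‖ = _ at h1
    have h0 := hnorm (x', (1 + 2 * κ) • u')
    change ‖G x' + A ((1 + 2 * κ) • u')‖ = _ at h0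
    rw [e1, h0, pnrm] at h1
    have h2 : ‖(1 + 2 * κ) • u'‖ = ‖u'‖ + 2 * R := by
      rw [norm_smul, Real.norm_of_nonneg (by positivity), add_mul, one_mul, mul_assoc, hκu]
    have h3 : ‖κ • u' - -(κ • u')‖ = 2 * R := by
      have : κ • u' - -(κ • u') = (2 : ℝ) • (κ • u') := by module
      rw [this, norm_smul, hn]; norm_num
    have h4 : ‖x1 - y2‖ ≤ 2 * R := by
      have := norm_sub_le x1 y2
      rw [hy2n] at this
      rw [hR]; linarith [norm_nonneg x1, norm_nonneg x2]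
    rw [h2, h3, max_eq_right h4] at h1
    have := le_max_right ‖x'‖ (‖u'‖ + 2 * R)
    linarith
  refine ⟨x', ?_⟩
  rw [← hz, hu', map_zero, add_zero]

/-- UA7.  Mazur-Ulam.  Sketch: the range of `G` is a submodule `V` of `W` (zero: `hG0`; sums:
`hadd`; `c • G x`: `c > 0` by `hGpos`, `c = 0` by `hG0`, `c < 0`: `c • G x = (-c) • G x'`).
`x ↦ ⟨G x, _⟩` is a bijective isometry `E ≃ᵢ V` (`IsometryEquiv.mk` of `Equiv.ofBijective`) mapping
`0` to `0`; `IsometryEquiv.toRealLinearIsometryEquivOfMapZero` makes it linear; compose with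
`V.subtypeL`. -/
lemma fin_linear {G : E → W} (hG0 : G 0 = 0)
    (hGpos : ∀ (l : ℝ) (x : E), 0 < l → G (l • x) = l • G x)
    (hGiso : ∀ x x' : E, ‖G x - G x'‖ = ‖x - x'‖)
    (hneg : ∀ x : E, ∃ x' : E, G x' = - G x)
    (hadd : ∀ x1 x2 : E, ∃ x' : E, G x' = G x1 + G x2) :
    ∃ Gc : E →L[ℝ] W, ∀ x, Gc x = G x := by
  classical
  let V : Submodule ℝ W :=
    { carrier := Set.range G
      zero_mem' := ⟨0, hG0⟩
      add_mem' := by
        rintro _ _ ⟨x1, rfl⟩ ⟨x2, rfl⟩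
        exact hadd x1 x2
      smul_mem' := by
        rintro c _ ⟨x, rfl⟩
        rcases lt_trichotomy c 0 with hc | hc | hc
        · obtain ⟨x', hx'⟩ := hneg x
          refine ⟨(-c) • x', ?_⟩
          rw [hGpos (-c) x' (by linarith), hx']
          simp
        · subst hc
          exact ⟨0, by simp [hG0]⟩
        · exact ⟨c • x, hGpos c x hc⟩ }
  let g : E → V := fun x => ⟨G x, ⟨x, rfl⟩⟩
  have hgiso : Isometry g := by
    refine Isometry.of_dist_eq (fun x y => ?_)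
    rw [dist_eq_norm, dist_eq_norm]
    exact hGiso x y
  have hgsurj : Function.Surjective g := by
    rintro ⟨_, ⟨x, rfl⟩⟩
    exact ⟨x, rfl⟩
  let e : E ≃ᵢ V := IsometryEquiv.mk (Equiv.ofBijective g ⟨hgiso.injective, hgsurj⟩) hgiso
  have he0 : e 0 = 0 := Subtype.ext hG0
  let L := e.toRealLinearIsometryEquivOfMapZero he0
  refine ⟨V.subtypeL.comp (L : E →L[ℝ] V), fun x => ?_⟩
  rfl

theorem asm_raw (hEn : ∃ e : E, ‖e‖ = 1) (hFn : ∃ s : F, ‖s‖ = 1) (hf : SphIso f)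
    (hgood : ∀ x : E, ‖x‖ = 1 → ∀ ε : ℝ, 0 < ε → ∃ a : E, ‖a‖ = 1 ∧ ‖a - x‖ < ε ∧ GoodPt f a) :
    ∃ T : E × F →L[ℝ] W, ∀ z, ‖z‖ = 1 → T z = f z := by
  obtain ⟨G, A, -, hG0, hGpos, hfz⟩ := asm_split hf hgood hEn
  obtain ⟨hnorm, hiso, hsurj⟩ := fin_basic hf hG0 hGpos hfz
  have hGiso := fin_Giso hFn hiso
  have hneg := fin_neg hG0 hnorm hiso hsurj
  have hadd := fin_add hnorm hiso hsurj hneg
  obtain ⟨Gc, hGc⟩ := fin_linear hG0 hGpos hGiso hneg hadd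
  refine ⟨Gc.comp (ContinuousLinearMap.fst ℝ E F) + A.comp (ContinuousLinearMap.snd ℝ E F), ?_⟩
  intro z hz
  rw [hfz z hz, ← hGc]
  rfl

end Vale.Agent.P084
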