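import Vale.Agent.P084.U.GL

/-! `C(K, ℝ) ⊕_∞ F` -/

namespace Vale.Agent.P084

universe u v w

lemma ck_pos (K : Type u) [TopologicalSpace K] [CompactSpace K] [Nonempty K] (t : K)
    (x : C(K, ℝ)) (hx : ‖x‖ ≤ 1) :
    ∃ c : C(K, ℝ), ‖c‖ ≤ 1 ∧ c t = 1 ∧ ‖x - c‖ ≤ 1 - x t := by
  have hx1 : ∀ s, x s ≤ 1 := fun s => le_trans (x.apply_le_norm s) hx
  have hx2 : ∀ s, -1 ≤ x s := fun s => le_trans (by linarith) (x.neg_norm_le_apply s)
  set τ : ℝ := 1 - x t with hτ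
  have hτ0 : 0 ≤ τ := by have := hx1 t; linarith
  refine ⟨(x + ContinuousMap.const K τ) ⊓ ContinuousMap.const K 1, ?_, ?_, ?_⟩
  · rw [ContinuousMap.norm_le _ zero_le_one]
    intro s
    simp only [ContinuousMap.inf_apply, ContinuousMap.add_apply, ContinuousMap.const_apply,
      Real.norm_eq_abs]
    rw [abs_le]
    refine ⟨le_min (by have := hx2 s; linarith) (by norm_num), min_le_right _ _⟩
  · simp only [ContinuousMap.inf_apply, ContinuousMap.add_apply, ContinuousMap.const_apply]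
    rw [hτ]
    simp
  · rw [ContinuousMap.norm_le _ hτ0]
    intro s
    simp only [ContinuousMap.sub_apply, ContinuousMap.inf_apply, ContinuousMap.add_apply,
      ContinuousMap.const_apply, Real.norm_eq_abs]
    rw [abs_le]
    constructor
    · have : min (x s + τ) 1 ≤ x s + τ := min_le_left _ _
      linarith
    · have : x s ≤ min (x s + τ) 1 := le_min (by linarith) (hx1 s)
      linarith

/-- UG7.  Sketch: `Λ = {σ • δ_t : t ∈ K, σ = 1 or σ = -1}` with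
`δ_t = ContinuousMap.evalCLM ℝ t` (check the exact Mathlib name).
* `σ x t ≤ ‖x‖` (`ContinuousMap.norm_coe_le_norm`, `abs`).
* norming: `‖x‖ = |x t|` for some `t` (`ContinuousMap.exists_norm_eq_norm_apply`?, or use
  `ContinuousMap.norm_lt_iff`/`norm_le`), choose the sign.
* for `φ = δ_t`, `‖x‖ ≤ 1`, `τ = 1 - x t`: `c = (x + const τ) ⊓ 1`, i.e. `c s = min (x s + τ) 1`;
  `c t = 1`, `x s ≤ c s ≤ x s + τ` (as `x s ≤ 1`, `τ ≥ 0`), `-1 ≤ c s ≤ 1`.
  For `φ = - δ_t` use `-c` built from `-x`. -/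
lemma ck_family (K : Type u) [TopologicalSpace K] [CompactSpace K] [Nonempty K] :
    ∃ Λ : Set (C(K, ℝ) →L[ℝ] ℝ), (∀ φ ∈ Λ, ∀ x, φ x ≤ ‖x‖) ∧
      (∀ x : C(K, ℝ), ∀ ε : ℝ, 0 < ε → ∃ φ ∈ Λ, ‖x‖ - ε < φ x) ∧
      (∀ φ ∈ Λ, ∀ x, ‖x‖ ≤ 1 → ∃ c, ‖c‖ ≤ 1 ∧ φ c = 1 ∧ ‖x - c‖ ≤ 1 - φ x) := by
  refine ⟨{φ | ∃ t : K, φ = ContinuousMap.evalCLM ℝ t ∨ φ = - ContinuousMap.evalCLM ℝ t},
    ?_, ?_, ?_⟩
  · rintro φ ⟨t, rfl | rfl⟩ x
    · exact x.apply_le_norm t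
    · show -(x t) ≤ ‖x‖
      have := x.neg_norm_le_apply t
      linarith
  · intro x ε hε
    by_contra hcon
    push Not at hcon
    have h1 : ∀ t : K, ‖x t‖ ≤ ‖x‖ - ε := by
      intro t
      rw [Real.norm_eq_abs, abs_le]
      have a := hcon (ContinuousMap.evalCLM ℝ t) ⟨t, Or.inl rfl⟩
      have b := hcon (- ContinuousMap.evalCLM ℝ t) ⟨t, Or.inr rfl⟩
      have a' : x t ≤ ‖x‖ - ε := a
      have b' : -(x t) ≤ ‖x‖ - ε := b
      constructor <;> linarith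
    have h2 := (ContinuousMap.norm_le_of_nonempty x).2 h1
    linarith
  · rintro φ ⟨t, rfl | rfl⟩ x hx
    · obtain ⟨c, h1, h2, h3⟩ := ck_pos K t x hx
      exact ⟨c, h1, h2, h3⟩
    · obtain ⟨c, h1, h2, h3⟩ := ck_pos K t (-x) (by rwa [norm_neg])
      refine ⟨-c, by rwa [norm_neg], ?_, ?_⟩
      · show -((-c) t) = 1
        simp [h2]
      · show ‖x - -c‖ ≤ 1 - -(x t)
        have e : x - -c = -(-x - c) := by abel
        rw [e, norm_neg]
        simpa using h3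

theorem ck_mup (K : Type u) [TopologicalSpace K] [CompactSpace K] [Nonempty K]
    (F : Type v) [NormedAddCommGroup F] [NormedSpace ℝ F] [Nontrivial F] :
    MazurUlamProperty.{max u v, w} (C(K, ℝ) × F) := by
  obtain ⟨Λ, h1, h2, h3⟩ := ck_family K
  exact gl_mup _ F Λ h1 h2 h3

end Vale.Agent.P084
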