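import Vale.Agent.P084.Sc3
import Vale.Agent.P084.Poly.Patch
import Vale.Agent.P084.Poly.Near

/-! Sup-normed products `E × F` where the rotund points and the flat points of the unit sphere of
`E` are dense; `F` arbitrary.  Definitions. -/

namespace Vale.Agent.P084

universe u v w

variable {E : Type u} {F : Type v} {W : Type w}
  [NormedAddCommGroup E] [NormedSpace ℝ E] [NormedAddCommGroup F] [NormedSpace ℝ F]
  [NormedAddCommGroup W] [NormedSpace ℝ W]

/-- `a` is a rotund point of the unit sphere: no other unit vector lies in a common face with it -/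
def RotundPt (a : E) : Prop := ∀ b : E, ‖b‖ = 1 → ‖a + b‖ = 2 → b = a

/-- the norm is linear in a neighbourhood of `a` -/
def FlatPt (a : E) : Prop := ∃ (φ : E →L[ℝ] ℝ) (ρ : ℝ), 0 < ρ ∧ Flat φ a ρ

/-- `f` is affine on the leaf `{a} × B_F` and on the radial strips `[0, a] × {s}` -/
def GoodPt (f : E × F → W) (a : E) : Prop :=
  ∃ A : F →L[ℝ] W, (∀ u, ‖A u‖ = ‖u‖) ∧ (∀ u, ‖u‖ ≤ 1 → f (a, u) = f (a, 0) + A u) ∧
    ∀ (t : ℝ) (s : F), 0 < t → t < 1 → ‖s‖ = 1 → f (t • a, s) = t • f (a, 0) + A s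

end Vale.Agent.P084
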