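import Vale.Agent.P084.U.Defs

/-! Maximal convex subsets of the unit sphere and surjective isometries of spheres
(general normed spaces). -/

namespace Vale.Agent.P084

open Metric Set

set_option linter.unusedSectionVars false

universe v w

variable {Z : Type v} {W : Type w}
  [NormedAddCommGroup Z] [NormedSpace ℝ Z] [NormedAddCommGroup W] [NormedSpace ℝ W]

/-- maximal convex subset of the unit sphere -/
def IsMaxFace (M : Set Z) : Prop :=
  Convex ℝ M ∧ (∀ x ∈ M, ‖x‖ = 1) ∧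
    ∀ C : Set Z, Convex ℝ C → (∀ x ∈ C, ‖x‖ = 1) → M ⊆ C → C ⊆ M

/-- UF1.  Zorn: every unit vector lies in a maximal convex subset of the sphere.
Sketch: `zorn_subset_nonempty` applied to the family of all convex `C` contained in the sphere,
starting from the singleton of `x`; the union of a nonempty chain of convex sets is convex
(`DirectedOn.convex_sUnion`, a chain is directed: `IsChain.directedOn`). -/
lemma exists_maxFace {x : Z} (hx : ‖x‖ = 1) : ∃ M : Set Z, IsMaxFace M ∧ x ∈ M := by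
  obtain ⟨M, hxM, hM⟩ := zorn_subset_nonempty
    {C : Set Z | Convex ℝ C ∧ ∀ y ∈ C, ‖y‖ = 1} (by
      intro c hc hchain _
      refine ⟨⋃₀ c, ⟨hchain.directedOn.convex_sUnion (fun A hA => (hc hA).1), ?_⟩,
        fun s hs => Set.subset_sUnion_of_mem hs⟩
      rintro y ⟨A, hA, hyA⟩
      exact (hc hA).2 y hyA) {x} ⟨convex_singleton x, by
        intro y hy
        rw [Set.mem_singleton_iff.1 hy]
        exact hx⟩
  refine ⟨M, ⟨hM.prop.1, hM.prop.2, fun C hC1 hC2 hMC => hM.le_of_ge ⟨hC1, hC2⟩ hMC⟩,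
    hxM (Set.mem_singleton x)⟩

/-- UF2.  If `‖x + y‖ = 2` for unit vectors then the norm is additive on the cone spanned by them.
Sketch: take `ψ` from `exists_dual_vector ℝ (x + y)`; then `ψ x = ψ y = 1`, so
`a + b = ψ (a x + b y) ≤ ‖a x + b y‖ ≤ a + b`. -/
lemma norm_comb_of_add {x y : Z} (hx : ‖x‖ = 1) (hy : ‖y‖ = 1) (h : ‖x + y‖ = 2) {a b : ℝ}
    (ha : 0 ≤ a) (hb : 0 ≤ b) : ‖a • x + b • y‖ = a + b := by
  have hne : ‖x + y‖ ≠ 0 := by
    rw [h]
    norm_num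
  obtain ⟨ψ, hψ1, hψ2⟩ := exists_dual_vector ℝ (x + y) hne
  have hψx : ψ x ≤ 1 := by
    have := ψ.le_opNorm x
    rw [hψ1, hx] at this
    have h2 := le_abs_self (ψ x)
    rw [Real.norm_eq_abs] at this
    linarith
  have hψy : ψ y ≤ 1 := by
    have := ψ.le_opNorm y
    rw [hψ1, hy] at this
    have h2 := le_abs_self (ψ y)
    rw [Real.norm_eq_abs] at this
    linarith
  have hsum : ψ x + ψ y = 2 := by
    rw [← map_add, hψ2, h]
    simp
  have hx1 : ψ x = 1 := by linarith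
  have hy1 : ψ y = 1 := by linarith
  apply le_antisymm
  · calc ‖a • x + b • y‖ ≤ ‖a • x‖ + ‖b • y‖ := norm_add_le _ _
      _ = a + b := by
        rw [norm_smul, norm_smul, hx, hy, Real.norm_eq_abs, Real.norm_eq_abs, abs_of_nonneg ha,
          abs_of_nonneg hb]
        ring
  · have h1 : ψ (a • x + b • y) = a + b := by
      rw [map_add, map_smul, map_smul, hx1, hy1]
      simp
    have h2 := ψ.le_opNorm (a • x + b • y)
    rw [hψ1, h1, one_mul, Real.norm_eq_abs] at h2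
    exact (le_abs_self _).trans h2

/-- UF2.  two points of a convex subset of the sphere -/
lemma IsMaxFace.norm_add {M : Set Z} (hM : IsMaxFace M) {x y : Z} (hx : x ∈ M) (hy : y ∈ M) :
    ‖x + y‖ = 2 := by
  have hmem : (1 / 2 : ℝ) • x + (1 / 2 : ℝ) • y ∈ M :=
    hM.1 hx hy (by norm_num) (by norm_num) (by norm_num)
  have h1 := hM.2.1 _ hmem
  rw [← smul_add, norm_smul] at h1
  norm_num at h1
  linarith

/-- UF3.  A unit vector `z` with `‖z + y‖ = 2` for all `y ∈ M` belongs to the maximal face `M`.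
Sketch: let `C = convexHull ℝ (insert z M)`.  If `M` is empty use `C = {z}`.  Otherwise by
`convexHull_insert` and `hM.1.convexHull_eq`, `C = convexJoin ℝ {z} M`, so every point of `C` is
`a z + b y` with `y ∈ M`, `a, b ≥ 0`, `a + b = 1`, of norm one by `norm_comb_of_add`.
By maximality `C ⊆ M` and `z ∈ C`. -/
lemma IsMaxFace.mem_of_forall {M : Set Z} (hM : IsMaxFace M) {z : Z} (hz : ‖z‖ = 1)
    (h : ∀ y ∈ M, ‖z + y‖ = 2) : z ∈ M := by
  by_cases hne : M.Nonempty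
  · have hC : ∀ w ∈ convexHull ℝ (insert z M), ‖w‖ = 1 := by
      intro w hw
      rw [convexHull_insert hne, hM.1.convexHull_eq, mem_convexJoin] at hw
      obtain ⟨a, ha, y, hy, hseg⟩ := hw
      rw [Set.mem_singleton_iff] at ha
      subst ha
      obtain ⟨s, t, hs, ht, hst, rfl⟩ := hseg
      rw [norm_comb_of_add hz (hM.2.1 y hy) (h y hy) hs ht, hst]
    have hsub := hM.2.2 (convexHull ℝ (insert z M)) (convex_convexHull ℝ _) hC
      (fun y hy => subset_convexHull ℝ _ (Set.mem_insert_of_mem z hy))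
    exact hsub (subset_convexHull ℝ _ (Set.mem_insert z M))
  · have hsub := hM.2.2 {z} (convex_singleton z) (by
      intro y hy
      rw [Set.mem_singleton_iff.1 hy]
      exact hz) (by
      intro y hy
      exact absurd ⟨y, hy⟩ hne)
    exact hsub (Set.mem_singleton z)

/-- UF4.  `2 = ‖q - x̄‖ ≤ l ‖q - x‖ + (1 - l) ‖q - x'‖ ≤ l ‖q - x‖ + 2 (1 - l)`. -/
lemma far_mono {x x' q : Z} {l : ℝ} (hl0 : 0 < l) (hl1 : l ≤ 1) (hx : ‖x‖ = 1) (hx' : ‖x'‖ ≤ 1)
    (hq : ‖q‖ = 1) (h : ‖q - (l • x + (1 - l) • x')‖ = 2) : ‖q - x‖ = 2 := by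
  have e1 : q - (l • x + (1 - l) • x') = l • (q - x) + (1 - l) • (q - x') := by module
  have h1 := norm_add_le (l • (q - x)) ((1 - l) • (q - x'))
  rw [← e1, h, norm_smul, norm_smul, Real.norm_of_nonneg hl0.le,
    Real.norm_of_nonneg (by linarith : (0 : ℝ) ≤ 1 - l)] at h1
  have h2 : ‖q - x'‖ ≤ 2 := by
    have := norm_sub_le q x'
    linarith
  have h3 : ‖q - x‖ ≤ 2 := by
    have := norm_sub_le q x
    linarith
  have h4 : (1 - l) * ‖q - x'‖ ≤ (1 - l) * 2 :=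
    mul_le_mul_of_nonneg_left h2 (by linarith)
  have h5 : l * 2 ≤ l * ‖q - x‖ := by linarith
  exact le_antisymm h3 (le_of_mul_le_mul_left h5 hl0)

variable {f : Z → W} (hf : SphIso f)
include hf

/-- UF4.  If the image of a proper convex combination `x̄ = l x + (1 - l) x'` (of norm one) lies in
the maximal face `N`, so does the image of `x`.
Sketch: by `IsMaxFace.mem_of_forall` we need `‖f x + y‖ = 2` for `y ∈ N`.  Write `-y = f q`
(`hf.surj`).  `‖f q - f x̄‖ = ‖y + f x̄‖ = 2` (`IsMaxFace.norm_add`), so `‖q - x̄‖ = 2` (`hf.iso`), so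
`‖q - x‖ = 2` (`far_mono`), so `‖f q - f x‖ = 2`, i.e. `‖f x + y‖ = 2`. -/
lemma mf_pull {N : Set W} (hN : IsMaxFace N) {x x' : Z} {l : ℝ} (hl0 : 0 < l) (hl1 : l ≤ 1)
    (hx : ‖x‖ = 1) (hx' : ‖x'‖ ≤ 1) (hbar : ‖l • x + (1 - l) • x'‖ = 1)
    (hmem : f (l • x + (1 - l) • x') ∈ N) : f x ∈ N := by
  apply hN.mem_of_forall (hf.norm x hx)
  intro y hy
  have hyn : ‖y‖ = 1 := hN.2.1 y hy
  obtain ⟨q, hq, hfq⟩ := hf.surj (-y) (by rw [norm_neg]; exact hyn)
  have h1 : ‖f q - f (l • x + (1 - l) • x')‖ = 2 := by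
    rw [hfq, ← norm_neg]
    have : -(-y - f (l • x + (1 - l) • x')) = y + f (l • x + (1 - l) • x') := by abel
    rw [this]
    exact hN.norm_add hy hmem
  rw [hf.iso _ _ hq hbar] at h1
  have h2 := far_mono hl0 hl1 hx hx' hq h1
  rw [← hf.iso _ _ hq hx, hfq, ← norm_neg] at h2
  have : -(-y - f x) = f x + y := by abel
  rw [this] at h2
  exact h2

/-- UF5.  Sketch: `x̄ = (1/2) x + (1/2) x'` has norm one; take a maximal face `N ∋ f x̄`
(`exists_maxFace`); `f x, f x' ∈ N` by `mf_pull`; conclude by `IsMaxFace.norm_add`. -/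
lemma mf_F1 {x x' : Z} (hx : ‖x‖ = 1) (hx' : ‖x'‖ = 1) (h : ‖x + x'‖ = 2) :
    ‖f x + f x'‖ = 2 := by
  have hbar : ‖(1 / 2 : ℝ) • x + (1 - 1 / 2 : ℝ) • x'‖ = 1 := by
    have : (1 / 2 : ℝ) • x + (1 - 1 / 2 : ℝ) • x' = (1 / 2 : ℝ) • (x + x') := by module
    rw [this, norm_smul, h]; norm_num
  have hbar' : ‖(1 / 2 : ℝ) • x' + (1 - 1 / 2 : ℝ) • x‖ = 1 := by
    have : (1 / 2 : ℝ) • x' + (1 - 1 / 2 : ℝ) • x = (1 / 2 : ℝ) • (x + x') := by module
    rw [this, norm_smul, h]; norm_num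
  obtain ⟨N, hN, hmem⟩ := exists_maxFace (hf.norm _ hbar)
  have hmem' : f ((1 / 2 : ℝ) • x' + (1 - 1 / 2 : ℝ) • x) ∈ N := by
    have : (1 / 2 : ℝ) • x' + (1 - 1 / 2 : ℝ) • x = (1 / 2 : ℝ) • x + (1 - 1 / 2 : ℝ) • x' := by
      module
    rw [this]; exact hmem
  have h1 := mf_pull hf hN (by norm_num) (by norm_num) hx hx'.le hbar hmem
  have h2 := mf_pull hf hN (by norm_num) (by norm_num) hx' hx.le hbar' hmem'
  exact hN.norm_add h1 h2

/-- UF5.  `mf_F1` for the inverse map given by `SphIso.exists_inv`. -/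
lemma mf_F1_inv {x x' : Z} (hx : ‖x‖ = 1) (hx' : ‖x'‖ = 1) (h : ‖f x + f x'‖ = 2) :
    ‖x + x'‖ = 2 := by
  obtain ⟨g, hg, hgf, _⟩ := hf.exists_inv
  have := mf_F1 hg (hf.norm x hx) (hf.norm x' hx') h
  rw [hgf x hx, hgf x' hx'] at this
  exact this

/-- UF6.  The image of a maximal face is midpoint convex.
Sketch: by `IsMaxFace.mem_of_forall` we need `‖v + m‖ = 2` for `m ∈ M`.  The point
`x̄ = (1/3) (x + x' + m)` lies in `M`.  Take a maximal face `N ∋ f x̄`.  By `mf_pull` (with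
`l = 1/3` and the midpoint of the two other points, which has norm at most one) `f x`, `f x'`,
`f m ∈ N`; `N` is convex, so `f v ∈ N`, so `‖f v + f m‖ = 2`; conclude by `mf_F1_inv`. -/
lemma mf_mid {M : Set Z} (hM : IsMaxFace M) {x x' v : Z} (hx : x ∈ M) (hx' : x' ∈ M)
    (hv : ‖v‖ = 1) (hfv : f v = (1 / 2 : ℝ) • (f x + f x')) : v ∈ M := by
  refine hM.mem_of_forall hv (fun m hm => ?_)
  have hnx := hM.2.1 x hx
  have hnx' := hM.2.1 x' hx'
  have hnm := hM.2.1 m hm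
  -- midpoints lie in M
  have mid : ∀ p ∈ M, ∀ q ∈ M, (1 / 2 : ℝ) • p + (1 / 2 : ℝ) • q ∈ M := fun p hp q hq =>
    hM.1 hp hq (by norm_num) (by norm_num) (by norm_num)
  have third : ∀ p ∈ M, ∀ q ∈ M, (1 / 3 : ℝ) • p + (1 - 1 / 3 : ℝ) • q ∈ M := fun p hp q hq =>
    hM.1 hp hq (by norm_num) (by norm_num) (by norm_num)
  set xb : Z := (1 / 3 : ℝ) • x + (1 - 1 / 3 : ℝ) • ((1 / 2 : ℝ) • x' + (1 / 2 : ℝ) • m) with hxb
  have hxbM : xb ∈ M := third x hx _ (mid x' hx' m hm)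
  have e2 : xb = (1 / 3 : ℝ) • x' + (1 - 1 / 3 : ℝ) • ((1 / 2 : ℝ) • x + (1 / 2 : ℝ) • m) := by
    rw [hxb]
    module
  have e3 : xb = (1 / 3 : ℝ) • m + (1 - 1 / 3 : ℝ) • ((1 / 2 : ℝ) • x + (1 / 2 : ℝ) • x') := by
    rw [hxb]
    module
  have hnxb := hM.2.1 xb hxbM
  obtain ⟨N, hN, hfN⟩ := exists_maxFace (hf.norm xb hnxb)
  have h1 : f x ∈ N := by
    refine mf_pull hf hN (l := 1 / 3) (x' := (1 / 2 : ℝ) • x' + (1 / 2 : ℝ) • m) (by norm_num)
      (by norm_num) hnx (hM.2.1 _ (mid x' hx' m hm)).le ?_ ?_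
    · exact hnxb
    · exact hfN
  have h2 : f x' ∈ N := by
    refine mf_pull hf hN (l := 1 / 3) (x' := (1 / 2 : ℝ) • x + (1 / 2 : ℝ) • m) (by norm_num)
      (by norm_num) hnx' (hM.2.1 _ (mid x hx m hm)).le ?_ ?_
    · rw [← e2]; exact hnxb
    · rw [← e2]; exact hfN
  have h3 : f m ∈ N := by
    refine mf_pull hf hN (l := 1 / 3) (x' := (1 / 2 : ℝ) • x + (1 / 2 : ℝ) • x') (by norm_num)
      (by norm_num) hnm (hM.2.1 _ (mid x hx x' hx')).le ?_ ?_
    · rw [← e3]; exact hnxb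
    · rw [← e3]; exact hfN
  have h4 : f v ∈ N := by
    rw [hfv, smul_add]
    exact hN.1 h1 h2 (by norm_num) (by norm_num) (by norm_num)
  exact mf_F1_inv hf hv hnm (hN.norm_add h4 h3)

end Vale.Agent.P084
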