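import Vale.Agent.P084.U.Defs

/-! Flat points of `S_E` are good points of `E × F`. -/

namespace Vale.Agent.P084

open Metric Set

set_option linter.unusedSectionVars false

universe u v w

variable {E : Type u} {F : Type v} {W : Type w}
  [NormedAddCommGroup E] [NormedSpace ℝ E] [NormedAddCommGroup F] [NormedSpace ℝ F]
  [NormedAddCommGroup W] [NormedSpace ℝ W]

/-- UL1.  Sketch: for `x ≠ 0` and `t = ρ / (2 ‖x‖)`:
`φ a + t φ x = ‖a + t x‖ ≤ ‖a‖ + t ‖x‖ = φ a + t ‖x‖` (`Flat.self` gives `‖a‖ = φ a`). -/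
lemma Flat.le_norm_u {φ : E →L[ℝ] ℝ} {a : E} {ρ : ℝ} (h : Flat φ a ρ) (hρ : 0 < ρ) :
    ∀ x, φ x ≤ ‖x‖ := by
  intro x
  by_cases hx : x = 0
  · rw [hx]; simp
  have hnx : 0 < ‖x‖ := norm_pos_iff.mpr hx
  set t : ℝ := ρ / (2 * ‖x‖) with ht
  have ht0 : 0 < t := by positivity
  have h1 : ‖t • x‖ < ρ := by
    rw [norm_smul, Real.norm_eq_abs, abs_of_pos ht0, ht]
    have : ρ / (2 * ‖x‖) * ‖x‖ = ρ / 2 := by field_simp
    rw [this]
    linarith
  have h2 := h (t • x) h1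
  have h3 := h.self hρ
  have h4 : ‖a + t • x‖ ≤ ‖a‖ + t * ‖x‖ := by
    refine (norm_add_le _ _).trans ?_
    rw [norm_smul, Real.norm_eq_abs, abs_of_pos ht0]
  rw [h2, map_add, map_smul, h3, smul_eq_mul] at h4
  have h5 : t * φ x ≤ t * ‖x‖ := by linarith
  exact le_of_mul_le_mul_left h5 ht0

/-- UL1.  Sketch: for `v = (v₁, v₂)` with `‖v‖ < min ρ (1/2)`:
`‖(a + v₁, v₂)‖ = max ‖a + v₁‖ ‖v₂‖ = ‖a + v₁‖ = φ (a + v₁)` because `‖a + v₁‖ > 1/2 > ‖v₂‖`. -/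
lemma Flat.prod {φ : E →L[ℝ] ℝ} {a : E} {ρ : ℝ} (h : Flat φ a ρ) (ha : ‖a‖ = 1) :
    Flat (φ.comp (ContinuousLinearMap.fst ℝ E F)) ((a, 0) : E × F) (min ρ (1 / 2)) := by
  rintro ⟨v1, v2⟩ hv
  rw [pnrm] at hv
  have hv1 : ‖v1‖ < ρ := lt_of_le_of_lt (le_max_left _ _) (lt_of_lt_of_le hv (min_le_left _ _))
  have hv1' : ‖v1‖ < 1 / 2 :=
    lt_of_le_of_lt (le_max_left _ _) (lt_of_lt_of_le hv (min_le_right _ _))
  have hv2 : ‖v2‖ < 1 / 2 :=
    lt_of_le_of_lt (le_max_right _ _) (lt_of_lt_of_le hv (min_le_right _ _))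
  have h1 : ‖a + v1‖ > 1 / 2 := by
    have := norm_sub_norm_le a (-v1)
    rw [sub_neg_eq_add, norm_neg, ha] at this
    linarith
  rw [Prod.mk_add_mk, pnrm, zero_add, max_eq_left (by linarith)]
  simp only [ContinuousLinearMap.coe_comp, ContinuousLinearMap.coe_fst', Function.comp_apply]
  exact h v1 hv1

/-- UL2.  A pure normed space lemma.  Sketch.  `φ a = 1`, `φ ≤ ‖·‖` (`Flat.self`, `Flat.le_norm_u`).
Put `g = τ a - z`; `‖g‖ = τ` (take `m = a`).  Let `θ` be a dual vector of `g` (`exists_dual_vector`):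
`‖θ‖ = 1`, `θ g = τ`.  For `v` with `φ v = 0`, `‖v‖ < ρ` the vector `m = a + v` has
`‖m‖ = φ m = 1`, so `‖g + τ v‖ = τ` up to sign, so `θ v ≤ 0`; the same for `-v`; so `θ v = 0`, and by
scaling `θ` vanishes on the kernel of `φ`.  As `x - φ x • a` lies in the kernel, `θ x = φ x * θ a`.
So `τ = θ g = φ g * θ a` with `|θ a| ≤ 1`, `|φ g| ≤ τ`; hence `φ g = τ` or `φ g = -τ`.  As
`φ g = τ - φ z` and `φ z < 2 τ`, `φ z = 0`.  Now if `‖m‖ = 1`, `φ m = 1` then `m' = m - τ⁻¹ z` has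
`‖m'‖ = τ⁻¹ ‖z - τ m‖ = 1` and `φ m' = 1`.  By induction `‖a - n τ⁻¹ z‖ = 1` for all `n`, so
`n τ⁻¹ ‖z‖ ≤ 2` for all `n`, so `z = 0`. -/
lemma pin {φ : E →L[ℝ] ℝ} {a : E} {ρ : ℝ} (hfl : Flat φ a ρ) (hρ : 0 < ρ) (ha : ‖a‖ = 1)
    {τ : ℝ} (hτ : 0 < τ) {z : E} (hφz : φ z < 2 * τ)
    (h : ∀ m : E, ‖m‖ = 1 → φ m = 1 → ‖z - τ • m‖ = τ) : z = 0 := by
  have hφa : φ a = 1 := by rw [← hfl.self hρ, ha]
  have hle : ∀ x, φ x ≤ ‖x‖ := Flat.le_norm_u hfl hρ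
  have hg : ‖τ • a - z‖ = τ := by rw [norm_sub_rev]; exact h a ha hφa
  have hg0 : ‖τ • a - z‖ ≠ 0 := by
    rw [hg]
    exact hτ.ne'
  obtain ⟨θ, hθ1, hθg⟩ := exists_dual_vector ℝ (τ • a - z) hg0
  have hθg' : θ (τ • a - z) = τ := by
    rw [hθg]
    simpa using hg
  have hθle : ∀ x, θ x ≤ ‖x‖ := by
    intro x
    have := θ.le_opNorm x
    rw [hθ1, one_mul] at this
    exact le_trans (le_abs_self _) this
  -- small kernel vectors
  have hsmall : ∀ v : E, φ v = 0 → ‖v‖ < ρ → θ v ≤ 0 := by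
    intro v hv hvρ
    have hm : ‖a + v‖ = 1 := by rw [hfl v hvρ, map_add, hφa, hv, add_zero]
    have hφm : φ (a + v) = 1 := by rw [map_add, hφa, hv, add_zero]
    have h1 := h (a + v) hm hφm
    have h2 : ‖(τ • a - z) + τ • v‖ = τ := by
      have e : (τ • a - z) + τ • v = -(z - τ • (a + v)) := by
        rw [smul_add]
        abel
      rw [e, norm_neg, h1]
    have h3 := hθle ((τ • a - z) + τ • v)
    rw [h2, map_add, hθg', map_smul, smul_eq_mul] at h3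
    nlinarith
  have hker0 : ∀ v : E, φ v = 0 → ‖v‖ < ρ → θ v = 0 := by
    intro v hv hvρ
    have h1 := hsmall v hv hvρ
    have h2 := hsmall (-v) (by rw [map_neg, hv, neg_zero]) (by rwa [norm_neg])
    rw [map_neg] at h2
    linarith
  have hker : ∀ v : E, φ v = 0 → θ v = 0 := by
    intro v hv
    by_cases hv0 : v = 0
    · rw [hv0, map_zero]
    have hnv : 0 < ‖v‖ := norm_pos_iff.mpr hv0
    have hc : 0 < ρ / (2 * ‖v‖) := by positivity
    have h1 := hker0 ((ρ / (2 * ‖v‖)) • v) (by rw [map_smul, hv, smul_zero]) (by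
      rw [norm_smul, Real.norm_of_nonneg hc.le]
      have : ρ / (2 * ‖v‖) * ‖v‖ = ρ / 2 := by field_simp
      rw [this]
      linarith)
    rw [map_smul, smul_eq_mul] at h1
    rcases mul_eq_zero.mp h1 with h2 | h2
    · exact absurd h2 hc.ne'
    · exact h2
  have hθx : ∀ x, θ x = φ x * θ a := by
    intro x
    have h1 := hker (x - φ x • a) (by rw [map_sub, map_smul, hφa, smul_eq_mul, mul_one, sub_self])
    rw [map_sub, map_smul, smul_eq_mul] at h1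
    linarith
  have hφz : φ z = 0 := by
    have h1 : φ (τ • a - z) * θ a = τ := by rw [← hθx, hθg']
    have h2 : φ (τ • a - z) = τ - φ z := by
      rw [map_sub, map_smul, hφa, smul_eq_mul, mul_one]
    have h3 : φ (τ • a - z) ≤ τ := le_trans (hle _) hg.le
    have h4 : -φ (τ • a - z) ≤ τ := by
      have := hle (-(τ • a - z))
      rwa [map_neg, norm_neg, hg] at this
    have h5 : θ a ≤ 1 := by rw [← ha]; exact hθle a
    have h6 : -θ a ≤ 1 := by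
      have := hθle (-a)
      rwa [map_neg, norm_neg, ha] at this
    rw [h2] at h1 h3 h4
    -- (τ - φ z) * θ a = τ, |τ - φ z| ≤ τ, |θ a| ≤ 1, φ z < 2 τ
    by_contra hne
    have hpos : 0 ≤ φ z := by linarith
    have hpos' : 0 < φ z := lt_of_le_of_ne hpos (Ne.symm hne)
    -- |τ - φ z| < τ
    have hA : (τ - φ z) * θ a < τ := by
      by_cases hs : 0 ≤ τ - φ z
      · calc (τ - φ z) * θ a ≤ (τ - φ z) * 1 := mul_le_mul_of_nonneg_left h5 hs
          _ < τ := by linarith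
      · have hs : τ - φ z < 0 := not_le.mp hs
        calc (τ - φ z) * θ a = (φ z - τ) * (-θ a) := by ring
          _ ≤ (φ z - τ) * 1 := mul_le_mul_of_nonneg_left h6 (by linarith)
          _ < τ := by linarith
    linarith
  have hstep : ∀ m : E, ‖m‖ = 1 → φ m = 1 → ‖m - τ⁻¹ • z‖ = 1 ∧ φ (m - τ⁻¹ • z) = 1 := by
    intro m hm hφm
    constructor
    · have h1 := h m hm hφm
      have e : m - τ⁻¹ • z = (-τ⁻¹) • (z - τ • m) := by
        rw [smul_sub, smul_smul, neg_mul, inv_mul_cancel₀ hτ.ne', neg_smul, neg_smul, one_smul]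
        abel
      rw [e, norm_smul, h1, norm_neg, Real.norm_of_nonneg (inv_pos.mpr hτ).le,
        inv_mul_cancel₀ hτ.ne']
    · rw [map_sub, map_smul, hφz, smul_zero, sub_zero, hφm]
  have hind : ∀ n : ℕ, ‖a - ((n : ℝ) * τ⁻¹) • z‖ = 1 ∧ φ (a - ((n : ℝ) * τ⁻¹) • z) = 1 := by
    intro n
    induction n with
    | zero => simp [ha, hφa]
    | succ n ih =>
      have h1 := hstep _ ih.1 ih.2
      have e : a - ((n : ℝ) * τ⁻¹) • z - τ⁻¹ • z = a - (((n + 1 : ℕ) : ℝ) * τ⁻¹) • z := by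
        rw [sub_sub, ← add_smul]
        congr 2
        push_cast
        ring
      rwa [e] at h1
  by_contra hz
  have hnz : 0 < ‖z‖ := norm_pos_iff.mpr hz
  obtain ⟨n, hn⟩ := exists_nat_gt (2 * τ / ‖z‖)
  have h1 : ‖((n : ℝ) * τ⁻¹) • z‖ ≤ 2 := by
    have e : ((n : ℝ) * τ⁻¹) • z = a - (a - ((n : ℝ) * τ⁻¹) • z) := by abel
    rw [e]
    calc ‖a - (a - ((n : ℝ) * τ⁻¹) • z)‖ ≤ ‖a‖ + ‖a - ((n : ℝ) * τ⁻¹) • z‖ := norm_sub_le _ _
      _ = 2 := by rw [ha, (hind n).1]; norm_num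
  rw [norm_smul, Real.norm_of_nonneg (by positivity)] at h1
  rw [div_lt_iff₀ hnz] at hn
  have h2 : (n : ℝ) * τ⁻¹ * ‖z‖ = (n * ‖z‖) / τ := by field_simp
  rw [h2, div_le_iff₀ hτ] at h1
  linarith

variable {f : E × F → W} (hf : SphIso f)
include hf

/-- UL3.  Sketch: apply `facet_data hf` to `Φ = φ ∘ fst` (`Φ x ≤ ‖x‖` by `Flat.le_norm_u` and
`norm_fst_le`), the flat point `(a, 0)` (`Flat.prod`, `norm_face`); it gives `T` with `f x = T x`
for `‖x‖ = 1`, `Φ x = 1`.  Put `C = T ∘ inl`, `A = T ∘ inr`; `(m, u) = (m, 0) + (0, u)`.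
`A` is isometric: for `‖v‖ ≤ 1`, `‖A v‖ = ‖f (a, v) - f (a, 0)‖ = ‖v‖` (`hf.iso`, `pnrm_sub`); scale. -/
lemma flat_face_data {φ : E →L[ℝ] ℝ} {a : E} {ρ : ℝ} (hfl : Flat φ a ρ) (hρ : 0 < ρ)
    (ha : ‖a‖ = 1) :
    ∃ (A : F →L[ℝ] W) (C : E →L[ℝ] W), (∀ u, ‖A u‖ = ‖u‖) ∧
      ∀ m, ‖m‖ = 1 → φ m = 1 → ∀ u, ‖u‖ ≤ 1 → f (m, u) = C m + A u := by
  have hΦ : ∀ x : E × F, (φ.comp (ContinuousLinearMap.fst ℝ E F)) x ≤ ‖x‖ := by
    intro x
    simp only [ContinuousLinearMap.coe_comp, ContinuousLinearMap.coe_fst', Function.comp_apply]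
    exact (hfl.le_norm_u hρ x.1).trans (norm_fst_le x)
  obtain ⟨T, ψ, hT, -, -, -⟩ := facet_data hf hΦ (hfl.prod (F := F) ha)
    (lt_min hρ (by norm_num)) (norm_face ha (by simp))
  have hφa : φ a = 1 := by rw [← hfl.self hρ, ha]
  have hTm : ∀ m, ‖m‖ = 1 → φ m = 1 → ∀ u : F, ‖u‖ ≤ 1 →
      f (m, u) = T (m, 0) + T (0, u) := by
    intro m hm hφm u hu
    rw [hT (m, u) (norm_face hm hu) (by simpa using hφm), ← map_add]
    simp
  have hsmall : ∀ v : F, ‖v‖ ≤ 1 → ‖T ((0 : E), v)‖ = ‖v‖ := by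
    intro v hv
    have h1 := hf.iso (a, v) (a, 0) (norm_face ha hv) (norm_face ha (by simp))
    rw [hTm a ha hφa v hv, hTm a ha hφa 0 (by simp), pnrm_sub] at h1
    have e : T (a, 0) + T ((0 : E), v) - (T (a, 0) + T ((0 : E), (0 : F))) = T ((0 : E), v) := by
      have : T ((0 : E), (0 : F)) = 0 := by
        have : ((0 : E), (0 : F)) = 0 := rfl
        rw [this, map_zero]
      rw [this]
      abel
    rw [e] at h1
    rw [h1]
    simp
  refine ⟨T.comp (ContinuousLinearMap.inr ℝ E F), T.comp (ContinuousLinearMap.inl ℝ E F), ?_, ?_⟩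
  · intro u
    show ‖T ((0 : E), u)‖ = ‖u‖
    by_cases hu : u = 0
    · rw [hu]
      have : ((0 : E), (0 : F)) = 0 := rfl
      rw [this, map_zero]
      simp
    have hnu : 0 < ‖u‖ := norm_pos_iff.mpr hu
    have h1 := hsmall (‖u‖⁻¹ • u) (by
      rw [norm_smul, norm_inv, norm_norm, inv_mul_cancel₀ hnu.ne'])
    have e : ((0 : E), ‖u‖⁻¹ • u) = ‖u‖⁻¹ • ((0 : E), u) := by
      rw [Prod.smul_mk, smul_zero]
    rw [e, map_smul, norm_smul, norm_smul, norm_inv, norm_norm] at h1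
    have h2 : ‖u‖⁻¹ ≠ 0 := inv_ne_zero hnu.ne'
    exact mul_left_cancel₀ h2 h1
  · intro m hm hφm u hu
    simpa using hTm m hm hφm u hu

/-- UL4.  Sketch (compare `side_open` in Sc3.lean).  For `m` in the face (`‖m‖ = 1`, `φ m = 1`)
`slice_norm (C m) A` gives `‖r • C m + A v‖ = max |r| ‖v‖`.  So `y = t • C a + A s` has norm one; let
`(x', s')` be its preimage.  For `m` in the face, `b = t a + (1 - t) m` is in the face
(`φ b = 1 ≤ ‖b‖ ≤ 1`) and `y - f (b, u) = -(1 - t) • C m + A (s - u)`, so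
`max ‖x' - b‖ ‖s' - u‖ = max (1 - t) ‖s - u‖` for all `‖u‖ ≤ 1`.  Taking `u = s` and `u = s'`:
`‖x' - b‖ = 1 - t`; then `s' = s` by `sphere_determined` (with `m = a`, `ε = 1 - t`).
Apply `pin` to `z = x' - t a`, `τ = 1 - t` (`φ z ≤ ‖x'‖ - t ≤ 1 - t < 2 τ`): `x' = t a`. -/
lemma flat_side {φ : E →L[ℝ] ℝ} {a : E} {ρ : ℝ} (hfl : Flat φ a ρ) (hρ : 0 < ρ)
    (ha : ‖a‖ = 1) (A : F →L[ℝ] W) (C : E →L[ℝ] W) (hA : ∀ u, ‖A u‖ = ‖u‖)
    (hT : ∀ m, ‖m‖ = 1 → φ m = 1 → ∀ u, ‖u‖ ≤ 1 → f (m, u) = C m + A u)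
    {t : ℝ} (ht0 : 0 < t) (ht1 : t < 1) {s : F} (hs : ‖s‖ = 1) :
    f (t • a, s) = t • C a + A s := by
  have hφa : φ a = 1 := by rw [← hfl.self hρ, ha]
  have hle := hfl.le_norm_u hρ
  have hN : ∀ m, ‖m‖ = 1 → φ m = 1 → ∀ (r : ℝ) (v : F), ‖r • C m + A v‖ = max |r| ‖v‖ := by
    intro m hm1 hm2
    exact slice_norm (C m) A
      (fun u hu => by rw [← hT m hm1 hm2 u hu]; exact hf.norm _ (norm_face hm1 hu)) hA
  have hyn : ‖t • C a + A s‖ = 1 := by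
    rw [hN a ha hφa, hs, abs_of_pos ht0]; exact max_eq_right ht1.le
  obtain ⟨⟨x', s'⟩, hp', hfp'⟩ := hf.surj _ hyn
  have hb : ∀ m, ‖m‖ = 1 → φ m = 1 →
      ‖t • a + (1 - t) • m‖ = 1 ∧ φ (t • a + (1 - t) • m) = 1 := by
    intro m hm1 hm2
    have h2 : φ (t • a + (1 - t) • m) = 1 := by
      rw [map_add, map_smul, map_smul, hφa, hm2, smul_eq_mul, smul_eq_mul]; ring
    have h3 := hle (t • a + (1 - t) • m)
    rw [h2] at h3
    refine ⟨le_antisymm ?_ h3, h2⟩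
    have := norm_add_le (t • a) ((1 - t) • m)
    rw [norm_smul, norm_smul, ha, hm1, Real.norm_of_nonneg ht0.le,
      Real.norm_of_nonneg (by linarith : (0 : ℝ) ≤ 1 - t)] at this
    linarith
  have star : ∀ m, ‖m‖ = 1 → φ m = 1 → ∀ u : F, ‖u‖ ≤ 1 →
      max ‖x' - (t • a + (1 - t) • m)‖ ‖s' - u‖ = max (1 - t) ‖s - u‖ := by
    intro m hm1 hm2 u hu
    obtain ⟨hb1, hb2⟩ := hb m hm1 hm2
    have a1 : |-(1 - t)| = 1 - t := by rw [abs_neg, abs_of_pos (by linarith)]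
    have e : f (x', s') - f (t • a + (1 - t) • m, u) = (-(1 - t)) • C m + A (s - u) := by
      rw [hfp', hT _ hb1 hb2 u hu, map_sub, map_add, map_smul, map_smul]; module
    rw [← pnrm_sub, ← hf.iso _ _ hp' (norm_face hb1 hu), e, hN m hm1 hm2, a1]
  have hp'' := hp'
  rw [pnrm] at hp''
  have hs'1 : ‖s'‖ ≤ 1 := hp'' ▸ le_max_right _ _
  have hx'1 : ‖x'‖ ≤ 1 := hp'' ▸ le_max_left _ _
  have hxb : ∀ m, ‖m‖ = 1 → φ m = 1 → ‖x' - (t • a + (1 - t) • m)‖ = 1 - t := by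
    intro m hm1 hm2
    have h1 := star m hm1 hm2 s hs.le
    rw [sub_self, norm_zero, max_eq_left (by linarith : (0 : ℝ) ≤ 1 - t)] at h1
    have h2 := star m hm1 hm2 s' hs'1
    rw [sub_self, norm_zero, max_eq_left (norm_nonneg _)] at h2
    have h3 : ‖x' - (t • a + (1 - t) • m)‖ ≤ 1 - t :=
      le_trans (le_max_left _ _) (le_of_eq h1)
    have h4 : 1 - t ≤ ‖x' - (t • a + (1 - t) • m)‖ :=
      le_trans (le_max_left _ _) (le_of_eq h2.symm)
    exact le_antisymm h3 h4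
  have hss : s' = s := by
    apply sphere_determined (ε := 1 - t) (by linarith) hs
    intro u hu
    have := star a ha hφa u hu
    rwa [hxb a ha hφa] at this
  have hz : x' - t • a = 0 := by
    apply pin hfl hρ ha (τ := 1 - t) (by linarith)
    · rw [map_sub, map_smul, hφa, smul_eq_mul, mul_one]
      have := hle x'
      linarith
    · intro m hm1 hm2
      rw [show x' - t • a - (1 - t) • m = x' - (t • a + (1 - t) • m) by abel]
      exact hxb m hm1 hm2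
  rw [← hfp', hss, sub_eq_zero.1 hz]

lemma flat_good {a : E} (ha : ‖a‖ = 1) (hfl : FlatPt a) : GoodPt f a := by
  obtain ⟨φ, ρ, hρ, h⟩ := hfl
  obtain ⟨A, C, hA, hT⟩ := flat_face_data hf h hρ ha
  have hφa : φ a = 1 := by rw [← h.self hρ, ha]
  have h0 : f (a, 0) = C a := by
    rw [hT a ha hφa 0 (by simp), map_zero, add_zero]
  refine ⟨A, hA, ?_, ?_⟩
  · intro u hu
    rw [hT a ha hφa u hu, h0]
  · intro t s ht0 ht1 hs
    rw [flat_side hf h hρ ha A C hA hT ht0 ht1 hs, h0]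

end Vale.Agent.P084
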