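import Vale.Agent.P084.U.Rot
import Vale.Agent.P084.U.Asm
import Vale.Agent.P084.ScInst

/-! `E × F` where `E` has a norming set `Λ` of functionals such that every `x` of the unit ball is
within distance `1 - φ x` of the face `{φ = 1}` (as in `C(K)`, `ℓ_∞`, `c₀`, `L₁`); `F` arbitrary. -/

namespace Vale.Agent.P084

open Metric Set

set_option linter.unusedSectionVars false

universe u v w

section general

variable {Z : Type v} {W : Type w}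
  [NormedAddCommGroup Z] [NormedSpace ℝ Z] [NormedAddCommGroup W] [NormedSpace ℝ W]
  {f : Z → W} (hf : SphIso f)
include hf

/-- UG1.  Sketch: by `IsMaxFace.mem_of_forall` we need `‖- f (-P) + y‖ = 2` for `y ∈ N`.  Write
`y = f x` (`hf.surj`, `hN.2.1`).  `‖f x + f P‖ = 2` (`IsMaxFace.norm_add`), so `‖x + P‖ = 2`
(`mf_F1_inv`), so `‖f x - f (-P)‖ = ‖x - -P‖ = 2` (`hf.iso`). -/
lemma mf_anti {N : Set W} (hN : IsMaxFace N) {P : Z} (hP : ‖P‖ = 1) (h : f P ∈ N) :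
    - f (-P) ∈ N := by
  have hnP : ‖-P‖ = 1 := by rw [norm_neg, hP]
  refine hN.mem_of_forall (by rw [norm_neg, hf.norm _ hnP]) (fun y hy => ?_)
  obtain ⟨x, hx, hxy⟩ := hf.surj y (hN.2.1 y hy)
  have h1 : ‖f x + f P‖ = 2 := by
    rw [hxy]
    exact hN.norm_add hy h
  have h2 : ‖x + P‖ = 2 := mf_F1_inv hf hx hP h1
  have h3 := hf.iso x (-P) hx hnP
  rw [sub_neg_eq_add, h2, hxy] at h3
  rw [← h3]
  congr 1
  abel

/-- UG2.  Finitely many points of a common face: one functional for their images and the images of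
their antipodes.  Sketch: `k = card ι`, `x̄ = k⁻¹ • ∑ P i` has norm one; take a maximal face
`N ∋ f x̄` (`exists_maxFace`).  For each `i`, `x̄ = l • P i + (1 - l) • x''` with `l = k⁻¹` and
`x'' = (k - 1)⁻¹ • ∑_{j ≠ i} P j` (any vector if `k = 1`), `‖x''‖ ≤ 1`; so `f (P i) ∈ N` by `mf_pull`
and `- f (-(P i)) ∈ N` by `mf_anti`.  The average `ȳ` of these `2 k` points lies in `N`
(`Convex.sum_mem` or `hN.1.centerMass_mem`), so `‖ȳ‖ = 1`; a dual vector `ψ` of `ȳ` satisfies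
`ψ ≤ ‖·‖`, `ψ ȳ = 1`, and `ψ ≤ 1` at each of the `2 k` unit vectors, hence `ψ = 1` at each. -/
lemma mf_functional {ι : Type} [Fintype ι] [Nonempty ι] (P : ι → Z) (hP : ∀ i, ‖P i‖ = 1)
    (hsum : ‖∑ i, P i‖ = Fintype.card ι) :
    ∃ ψ : W →L[ℝ] ℝ, (∀ y, ψ y ≤ ‖y‖) ∧ ∀ i, ψ (f (P i)) = 1 ∧ ψ (f (-(P i))) = -1 := by
  classical
  have hk1 : (1 : ℝ) ≤ (Fintype.card ι : ℝ) := by
    exact_mod_cast Fintype.card_pos
  have hk0 : (0 : ℝ) < (Fintype.card ι : ℝ) := by linarith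
  set k : ℝ := (Fintype.card ι : ℝ) with hk
  set xb : Z := k⁻¹ • ∑ i, P i with hxb
  have hnxb : ‖xb‖ = 1 := by
    rw [hxb, norm_smul, hsum, Real.norm_eq_abs, abs_of_pos (inv_pos.mpr hk0)]
    exact inv_mul_cancel₀ hk0.ne'
  obtain ⟨N, hN, hfN⟩ := exists_maxFace (hf.norm xb hnxb)
  have hmemP : ∀ i, f (P i) ∈ N := by
    intro i
    have hsplit : ∑ j, P j = P i + ∑ j ∈ Finset.univ.erase i, P j :=
      (Finset.add_sum_erase Finset.univ P (Finset.mem_univ i)).symm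
    have hS : ‖∑ j ∈ Finset.univ.erase i, P j‖ ≤ k - 1 := by
      calc ‖∑ j ∈ Finset.univ.erase i, P j‖ ≤ ∑ j ∈ Finset.univ.erase i, ‖P j‖ :=
            norm_sum_le _ _
        _ = ∑ j ∈ Finset.univ.erase i, (1 : ℝ) := Finset.sum_congr rfl (fun j _ => hP j)
        _ = k - 1 := by
            rw [Finset.sum_const, Finset.card_erase_of_mem (Finset.mem_univ i), Finset.card_univ,
              nsmul_eq_mul, mul_one, Nat.cast_sub Fintype.card_pos]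
            simp [hk]
    have hx'' : ‖(k - 1)⁻¹ • ∑ j ∈ Finset.univ.erase i, P j‖ ≤ 1 := by
      rw [norm_smul, Real.norm_eq_abs, abs_of_nonneg (inv_nonneg.mpr (by linarith))]
      calc (k - 1)⁻¹ * ‖∑ j ∈ Finset.univ.erase i, P j‖ ≤ (k - 1)⁻¹ * (k - 1) :=
            mul_le_mul_of_nonneg_left hS (inv_nonneg.mpr (by linarith))
        _ ≤ 1 := inv_mul_le_one
    have heq : xb = k⁻¹ • P i + (1 - k⁻¹) • ((k - 1)⁻¹ • ∑ j ∈ Finset.univ.erase i, P j) := by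
      rw [hxb, hsplit, smul_add, smul_smul]
      congr 1
      by_cases hk' : k = 1
      · have h0 : ∑ j ∈ Finset.univ.erase i, P j = 0 := by
          rw [← norm_le_zero_iff]
          linarith
        rw [h0, smul_zero, smul_zero]
      · have hk'' : k - 1 ≠ 0 := sub_ne_zero.mpr hk'
        congr 1
        field_simp
    refine mf_pull hf hN (l := k⁻¹) (x' := (k - 1)⁻¹ • ∑ j ∈ Finset.univ.erase i, P j)
      (inv_pos.mpr hk0) (inv_le_one_of_one_le₀ hk1) (hP i) hx'' ?_ ?_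
    · rw [← heq]; exact hnxb
    · rw [← heq]; exact hfN
  have hmemA : ∀ i, - f (-(P i)) ∈ N := fun i => mf_anti hf hN (hP i) (hmemP i)
  have hmid : ∀ i, (1 / 2 : ℝ) • f (P i) + (1 / 2 : ℝ) • (- f (-(P i))) ∈ N := fun i =>
    hN.1 (hmemP i) (hmemA i) (by norm_num) (by norm_num) (by norm_num)
  have hyb : ∑ i, k⁻¹ • ((1 / 2 : ℝ) • f (P i) + (1 / 2 : ℝ) • (- f (-(P i)))) ∈ N := by
    refine hN.1.sum_mem (fun i _ => (inv_pos.mpr hk0).le) ?_ (fun i _ => hmid i)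
    rw [Finset.sum_const, Finset.card_univ, nsmul_eq_mul]
    exact mul_inv_cancel₀ hk0.ne'
  have hnyb := hN.2.1 _ hyb
  obtain ⟨ψ, hψ1, hψ2⟩ := exists_dual_vector ℝ _ (by rw [hnyb]; norm_num :
    ‖∑ i, k⁻¹ • ((1 / 2 : ℝ) • f (P i) + (1 / 2 : ℝ) • (- f (-(P i))))‖ ≠ 0)
  have hle : ∀ y, ψ y ≤ ‖y‖ := by
    intro y
    have h1 := ψ.le_opNorm y
    rw [hψ1, one_mul, Real.norm_eq_abs] at h1
    exact (le_abs_self _).trans h1
  refine ⟨ψ, hle, ?_⟩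
  have ha : ∀ i, ψ (f (P i)) ≤ 1 := fun i => (hle _).trans (hN.2.1 _ (hmemP i)).le
  have hb : ∀ i, ψ (- f (-(P i))) ≤ 1 := fun i => (hle _).trans (hN.2.1 _ (hmemA i)).le
  rw [hnyb, map_sum] at hψ2
  have hψ3 : ∑ i, k⁻¹ * ((1 / 2) * ψ (f (P i)) + (1 / 2) * ψ (- f (-(P i)))) = 1 := by
    have : ∀ i, ψ (k⁻¹ • ((1 / 2 : ℝ) • f (P i) + (1 / 2 : ℝ) • (- f (-(P i))))) =
        k⁻¹ * ((1 / 2) * ψ (f (P i)) + (1 / 2) * ψ (- f (-(P i)))) := by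
      intro i
      rw [map_smul, map_add, map_smul, map_smul]
      simp only [smul_eq_mul]
    rw [← Finset.sum_congr rfl (fun i _ => this i)]
    simpa using hψ2
  have hone : ∑ _i : ι, k⁻¹ * (1 : ℝ) = 1 := by
    rw [Finset.sum_const, Finset.card_univ, nsmul_eq_mul, mul_one]
    exact mul_inv_cancel₀ hk0.ne'
  have hzero : ∑ i, k⁻¹ * (1 - ((1 / 2) * ψ (f (P i)) + (1 / 2) * ψ (- f (-(P i))))) = 0 := by
    have : ∀ i, k⁻¹ * (1 - ((1 / 2) * ψ (f (P i)) + (1 / 2) * ψ (- f (-(P i))))) =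
        k⁻¹ * 1 - k⁻¹ * ((1 / 2) * ψ (f (P i)) + (1 / 2) * ψ (- f (-(P i)))) := fun i => by ring
    rw [Finset.sum_congr rfl (fun i _ => this i), Finset.sum_sub_distrib, hone, hψ3, sub_self]
  have hnn : ∀ i ∈ (Finset.univ : Finset ι),
      0 ≤ k⁻¹ * (1 - ((1 / 2) * ψ (f (P i)) + (1 / 2) * ψ (- f (-(P i))))) := by
    intro i _
    refine mul_nonneg (inv_pos.mpr hk0).le ?_
    have := ha i
    have := hb i
    linarith
  intro i
  have hi := (Finset.sum_eq_zero_iff_of_nonneg hnn).1 hzero i (Finset.mem_univ i)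
  have hi' : 1 - ((1 / 2) * ψ (f (P i)) + (1 / 2) * ψ (- f (-(P i)))) = 0 := by
    rcases mul_eq_zero.1 hi with h | h
    · exact absurd h (inv_pos.mpr hk0).ne'
    · exact h
  have h1 := ha i
  have h2 := hb i
  have h3 : ψ (- f (-(P i))) = - ψ (f (-(P i))) := map_neg ψ _
  constructor
  · linarith
  · linarith

end general

variable {E : Type u} {F : Type v} {W : Type w}
  [NormedAddCommGroup E] [NormedSpace ℝ E] [NormedAddCommGroup F] [NormedSpace ℝ F]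
  [NormedAddCommGroup W] [NormedSpace ℝ W]

/-- UG4. -/
lemma gl_sep {Λ : Set (E →L[ℝ] ℝ)} (hΛ2 : ∀ x : E, ∀ ε : ℝ, 0 < ε → ∃ φ ∈ Λ, ‖x‖ - ε < φ x)
    {x x' : E} (h : ∀ φ ∈ Λ, φ x = φ x') : x = x' := by
  have h0 : ‖x - x'‖ ≤ 0 := by
    apply le_of_forall_pos_le_add
    intro ε hε
    obtain ⟨φ, hφ, h1⟩ := hΛ2 (x - x') ε hε
    rw [map_sub, h φ hφ, sub_self] at h1
    linarith
  exact sub_eq_zero.mp (norm_le_zero_iff.mp h0)

variable {f : E × F → W} (hf : SphIso f)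
include hf

/-- UG3.  `f` preserves the coordinate `φ`.  Sketch: write `p i = (x i, u i)`.  Choose `c i` for
`x i` and `c' i` for `- x i` by `hG` (`‖x i‖ ≤ 1`).  Apply `mf_functional` to
`P : Fin 3 ⊕ Fin 3 → E × F`, `P (inl i) = (c i, u i)`, `P (inr i) = (c' i, - u i)`: they are unit
vectors (`1 = φ c ≤ ‖c‖ ≤ 1`) and `6 = φ (∑ (P j).1) ≤ ‖∑ P j‖ ≤ 6`.  Then
`ψ (f (p i)) ≥ ψ (f (c i, u i)) - ‖p i - (c i, u i)‖ = 1 - ‖x i - c i‖ ≥ φ (x i)` and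
`ψ (f (p i)) ≤ ψ (f (-(c' i), u i)) + ‖p i - (-(c' i), u i)‖ = -1 + ‖- x i - c' i‖ ≤ φ (x i)`. -/
lemma gl_coord {φ : E →L[ℝ] ℝ} (hφ : ∀ x, φ x ≤ ‖x‖)
    (hG : ∀ x, ‖x‖ ≤ 1 → ∃ c, ‖c‖ ≤ 1 ∧ φ c = 1 ∧ ‖x - c‖ ≤ 1 - φ x)
    (p : Fin 3 → E × F) (hp : ∀ i, ‖p i‖ = 1) :
    ∃ ψ : W →L[ℝ] ℝ, (∀ y, ψ y ≤ ‖y‖) ∧ ∀ i, ψ (f (p i)) = φ (p i).1 := by
  have hx : ∀ i, ‖(p i).1‖ ≤ 1 := fun i => by
    rw [← hp i]; exact norm_fst_le (p i)
  have hu : ∀ i, ‖(p i).2‖ ≤ 1 := fun i => by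
    rw [← hp i]; exact norm_snd_le (p i)
  choose c hc1 hc2 hc3 using fun i => hG (p i).1 (hx i)
  choose c' hc1' hc2' hc3' using fun i => hG (-(p i).1) (by rw [norm_neg]; exact hx i)
  have hcn : ∀ i, ‖c i‖ = 1 := fun i => le_antisymm (hc1 i) (by rw [← hc2 i]; exact hφ _)
  have hcn' : ∀ i, ‖c' i‖ = 1 := fun i => le_antisymm (hc1' i) (by rw [← hc2' i]; exact hφ _)
  set P : Fin 3 ⊕ Fin 3 → E × F :=
    Sum.elim (fun i => (c i, (p i).2)) (fun i => (c' i, -(p i).2)) with hPdef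
  have hP : ∀ j, ‖P j‖ = 1 := by
    rintro (i | i)
    · exact norm_face (hcn i) (hu i)
    · exact norm_face (hcn' i) (by rw [norm_neg]; exact hu i)
  have hφP : ∀ j, φ (P j).1 = 1 := by
    rintro (i | i)
    · exact hc2 i
    · exact hc2' i
  have hsum : ‖∑ j, P j‖ = Fintype.card (Fin 3 ⊕ Fin 3) := by
    apply le_antisymm
    · calc ‖∑ j, P j‖ ≤ ∑ j, ‖P j‖ := norm_sum_le _ _
        _ = ∑ _j : Fin 3 ⊕ Fin 3, (1 : ℝ) := Finset.sum_congr rfl (fun j _ => hP j)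
        _ = Fintype.card (Fin 3 ⊕ Fin 3) := by simp
    · calc (Fintype.card (Fin 3 ⊕ Fin 3) : ℝ) = ∑ _j : Fin 3 ⊕ Fin 3, (1 : ℝ) := by simp
        _ = ∑ j, φ (P j).1 := Finset.sum_congr rfl (fun j _ => (hφP j).symm)
        _ = φ (∑ j, P j).1 := by rw [Prod.fst_sum, map_sum]
        _ ≤ ‖(∑ j, P j).1‖ := hφ _
        _ ≤ ‖∑ j, P j‖ := norm_fst_le _
  obtain ⟨ψ, hψ, hψP⟩ := mf_functional hf P hP hsum
  refine ⟨ψ, hψ, fun i => ?_⟩
  apply le_antisymm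
  · have h1 := (hψP (Sum.inr i)).2
    have hPi : -(P (Sum.inr i)) = (-(c' i), (p i).2) := by
      simp [hPdef]
    rw [hPi] at h1
    have n1 : ‖((-(c' i), (p i).2) : E × F)‖ = 1 :=
      norm_face (by rw [norm_neg]; exact hcn' i) (hu i)
    have h2 := hψ (f (p i) - f (-(c' i), (p i).2))
    rw [map_sub, h1, hf.iso _ _ (hp i) n1] at h2
    have h3 : ‖p i - (-(c' i), (p i).2)‖ = ‖-(p i).1 - c' i‖ := by
      have : p i = ((p i).1, (p i).2) := rfl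
      rw [this, pnrm_sub, sub_self, norm_zero, max_eq_left (norm_nonneg _), ← norm_neg]
      congr 1
      abel
    rw [h3] at h2
    have h4 := hc3' i
    rw [map_neg] at h4
    linarith
  · have h1 := (hψP (Sum.inl i)).1
    have hPi : P (Sum.inl i) = (c i, (p i).2) := rfl
    rw [hPi] at h1
    have n1 : ‖((c i, (p i).2) : E × F)‖ = 1 := norm_face (hcn i) (hu i)
    have h2 := hψ (f (c i, (p i).2) - f (p i))
    rw [map_sub, h1, hf.iso _ _ n1 (hp i)] at h2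
    have h3 : ‖(c i, (p i).2) - p i‖ = ‖(p i).1 - c i‖ := by
      have : p i = ((p i).1, (p i).2) := rfl
      rw [this, pnrm_sub, sub_self, norm_zero, max_eq_left (norm_nonneg _), norm_sub_rev]
    rw [h3] at h2
    have h4 := hc3 i
    linarith

variable {Λ : Set (E →L[ℝ] ℝ)} (hΛ1 : ∀ φ ∈ Λ, ∀ x, φ x ≤ ‖x‖)
  (hΛ2 : ∀ x : E, ∀ ε : ℝ, 0 < ε → ∃ φ ∈ Λ, ‖x‖ - ε < φ x)
  (hΛ3 : ∀ φ ∈ Λ, ∀ x, ‖x‖ ≤ 1 → ∃ c, ‖c‖ ≤ 1 ∧ φ c = 1 ∧ ‖x - c‖ ≤ 1 - φ x)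
include hΛ1 hΛ2 hΛ3

/-- UG4.  Sketch: the midpoint `k` of `f (a, u1)`, `f (a, u2)` has norm one (`flat_leaf_g`); let
`f (a', v) = k`.  For `φ ∈ Λ`, `gl_coord` for the three points `(a, u1)`, `(a, u2)`, `(a', v)` (use
`![_, _, _]`) gives `φ a' = ψ k = φ a`.  So `a' = a` by `gl_sep`. -/
lemma gl_mid {a : E} (ha : ‖a‖ = 1) {u1 u2 : F} (h1 : ‖u1‖ < 1) (h2 : ‖u2‖ ≤ 1) :
    ∃ v, ‖v‖ ≤ 1 ∧ f (a, v) = (1 / 2 : ℝ) • (f (a, u1) + f (a, u2)) := by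
  have n1 := norm_face (F := F) ha h1.le
  have n2 := norm_face (F := F) ha h2
  have hk : ‖(1 / 2 : ℝ) • (f (a, u1) + f (a, u2))‖ = 1 := by
    rw [norm_smul, add_comm, flat_leaf_g hf ha h2 h1]
    norm_num
  obtain ⟨⟨a', v⟩, hy, hfy⟩ := hf.surj _ hk
  have hv : ‖v‖ ≤ 1 := by
    rw [pnrm] at hy
    exact hy ▸ le_max_right _ _
  have haa : a' = a := by
    apply gl_sep hΛ2
    intro φ hφ
    obtain ⟨ψ, -, hψ⟩ := gl_coord hf (hΛ1 φ hφ) (hΛ3 φ hφ) ![(a, u1), (a, u2), (a', v)]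
      (by
        intro i
        fin_cases i
        · exact n1
        · exact n2
        · exact hy)
    have e0 : ψ (f (a, u1)) = φ a := hψ 0
    have e1 : ψ (f (a, u2)) = φ a := hψ 1
    have e2 : ψ (f (a', v)) = φ a' := hψ 2
    rw [← e2, hfy, map_smul, map_add, e0, e1, smul_eq_mul]
    ring
  subst haa
  exact ⟨v, hv, hfy⟩

/-- UG5.  Sketch: copy the first part of `crux'` (Sd2.lean) up to `he' : ‖e'‖ = 1`
(`w = 2 k1 - k2`, `1 ≤ ‖w‖`, `wh = ‖w‖⁻¹ • w = f (e', u')`).  For `φ ∈ Λ`, `gl_coord` for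
`(e0, u1)`, `(e0, u2)`, `(e', u')` gives `‖w‖ * φ e' = ψ w = 2 φ e0 - φ e0 = φ e0 ≤ 1`.  Taking `φ` with
`φ e' > 1 - ε` gives `‖w‖ (1 - ε) ≤ 1` for all `ε`, so `‖w‖ = 1`; then `φ e' = φ e0` for all `φ ∈ Λ`, so
`e' = e0` (`gl_sep`) and `f (e0, u') = w`. -/
lemma gl_ext {e0 : E} (he0 : ‖e0‖ = 1)
    {η r : ℝ} (h2r : 2 * r < η)
    {u1 u2 : F} (h1 : ‖u1‖ ≤ 1 - η) (h2 : ‖u2‖ ≤ 1 - η) (h12 : ‖u1 - u2‖ ≤ r) :
    ∃ v, ‖v‖ ≤ 1 ∧ f (e0, v) = (2 : ℝ) • f (e0, u1) - f (e0, u2) := by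
  have hr0 : 0 ≤ r := le_trans (norm_nonneg _) h12
  have hη0 : 0 < η := by linarith
  have hη1 : η ≤ 1 := by linarith [norm_nonneg u1]
  have n1 : ‖((e0, u1) : E × F)‖ = 1 := norm_face he0 (by linarith)
  have n2 : ‖((e0, u2) : E × F)‖ = 1 := norm_face he0 (by linarith)
  set k1 := f (e0, u1) with hk1
  set k2 := f (e0, u2) with hk2
  have nk1 : ‖k1‖ = 1 := hf.norm _ n1
  have nk2 : ‖k2‖ = 1 := hf.norm _ n2
  set w : W := (2 : ℝ) • k1 - k2 with hw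
  have hk12 : ‖k1 - k2‖ ≤ r := by
    rw [hk1, hk2, hf.iso _ _ n1 n2, pnrm_sub, sub_self, norm_zero]
    exact max_le hr0 h12
  have hwk : ‖w - k1‖ ≤ r := by
    have : w - k1 = k1 - k2 := by rw [hw]; module
    rw [this]; exact hk12
  have hwk2 : w + k2 = (2 : ℝ) • k1 := by rw [hw]; abel
  have hwk2n : ‖w + k2‖ = 2 := by rw [hwk2, norm_smul, nk1]; norm_num
  have hw1 : 1 ≤ ‖w‖ := by
    have := norm_add_le w k2
    rw [hwk2n, nk2] at this; linarith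
  have hw2 : ‖w‖ ≤ 1 + r := by
    have := norm_add_le k1 (w - k1)
    rw [add_sub_cancel] at this
    linarith
  have hwpos : 0 < ‖w‖ := by linarith
  set wh : W := ‖w‖⁻¹ • w with hwh
  have hwhn : ‖wh‖ = 1 := by
    rw [hwh, norm_smul, norm_inv, norm_norm, inv_mul_cancel₀ hwpos.ne']
  have hww : w = ‖w‖ • wh := by
    rw [hwh, smul_smul, mul_inv_cancel₀ hwpos.ne', one_smul]
  have hdiff : ‖w - wh‖ = ‖w‖ - 1 := by
    have : w - wh = (‖w‖ - 1) • wh := by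
      rw [sub_smul, one_smul, ← hww]
    rw [this, norm_smul, hwhn, mul_one, Real.norm_of_nonneg (by linarith)]
  obtain ⟨⟨e', u'⟩, hp, hfp⟩ := hf.surj wh hwhn
  have hpa : ‖((e', u') : E × F) - (e0, u1)‖ ≤ 2 * r := by
    rw [← hf.iso _ _ hp n1, hfp]
    have e1 : wh - k1 = (w - k1) - (w - wh) := by abel
    rw [← hk1, e1]
    have := norm_sub_le (w - k1) (w - wh)
    linarith
  rw [pnrm_sub] at hpa
  have hd1 : ‖e' - e0‖ ≤ 2 * r := le_trans (le_max_left _ _) hpa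
  have hd2 : ‖u' - u1‖ ≤ 2 * r := le_trans (le_max_right _ _) hpa
  have hu' : ‖u'‖ < 1 := by
    have := norm_add_le (u' - u1) u1
    rw [sub_add_cancel] at this
    linarith
  have he' : ‖e'‖ = 1 := by
    rw [pnrm] at hp
    rcases max_choice ‖e'‖ ‖u'‖ with h | h
    · rw [h] at hp; exact hp
    · rw [h] at hp; linarith
  -- the coordinate identity
  have key : ∀ φ ∈ Λ, ‖w‖ * φ e' = φ e0 := by
    intro φ hφ
    obtain ⟨ψ, -, hψ⟩ := gl_coord hf (hΛ1 φ hφ) (hΛ3 φ hφ) ![(e0, u1), (e0, u2), (e', u')]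
      (by
        intro i
        fin_cases i
        · exact n1
        · exact n2
        · exact hp)
    have a0 : ψ k1 = φ e0 := hψ 0
    have a1 : ψ k2 = φ e0 := hψ 1
    have a2 : ψ wh = φ e' := by
      rw [← hfp]
      exact hψ 2
    have a3 : ψ w = ‖w‖ * ψ wh := by
      conv_lhs => rw [hww]
      rw [map_smul, smul_eq_mul]
    have a4 : ψ w = 2 * ψ k1 - ψ k2 := by
      rw [hw, map_sub, map_smul, smul_eq_mul]
    rw [← a2, ← a3, a4, a0, a1]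
    ring
  have hwn : ‖w‖ = 1 := by
    apply le_antisymm _ hw1
    by_contra hcon
    rw [not_le] at hcon
    set ε : ℝ := 1 - ‖w‖⁻¹ with hε
    have hinv : ‖w‖⁻¹ < 1 := inv_lt_one_of_one_lt₀ hcon
    have hε0 : 0 < ε := by rw [hε]; linarith
    obtain ⟨φ, hφ, hφe⟩ := hΛ2 e' ε hε0
    rw [he', hε] at hφe
    have h3 : ‖w‖⁻¹ < φ e' := by linarith
    have h4 := key φ hφ
    have h5 : φ e0 ≤ 1 := by rw [← he0]; exact hΛ1 φ hφ e0
    have h6 : ‖w‖ * ‖w‖⁻¹ < ‖w‖ * φ e' := mul_lt_mul_of_pos_left h3 hwpos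
    rw [mul_inv_cancel₀ hwpos.ne'] at h6
    linarith
  have hee : e' = e0 := by
    apply gl_sep hΛ2
    intro φ hφ
    have := key φ hφ
    rwa [hwn, one_mul] at this
  refine ⟨u', hu'.le, ?_⟩
  rw [← hee, hfp, hwh, hwn, inv_one, one_smul]

/-- UG6.  Sketch: as in `side_open` (Sc3.lean): `c = f (e, 0)`, `y = t • c + A s` has norm one
(`slice_norm`), `f (e', s') = y`, and `s' = s` (same proof, `sphere_determined`).  For `φ ∈ Λ`,
`gl_coord` for `(e', s)`, `(e, 0)`, `(e, s)` gives `ψ c = φ e`, `ψ (A s) = ψ (f (e, s)) - ψ c = 0`, so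
`φ e' = ψ y = t φ e = φ (t • e)`.  So `e' = t • e` by `gl_sep`. -/
lemma gl_side {e : E} (he : ‖e‖ = 1) (A : F →L[ℝ] W)
    (hA1 : ∀ u, ‖u‖ ≤ 1 → f (e, u) = f (e, 0) + A u) (hA2 : ∀ u, ‖A u‖ = ‖u‖)
    {t : ℝ} (ht0 : 0 < t) (ht1 : t < 1) {s : F} (hs : ‖s‖ = 1) :
    f (t • e, s) = t • f (e, 0) + A s := by
  set c : W := f (e, 0) with hc
  have hN := slice_norm c A (fun u hu => by rw [← hA1 u hu]; exact hf.norm _ (norm_face he hu)) hA2
  have hyn : ‖t • c + A s‖ = 1 := by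
    rw [hN, hs, abs_of_pos ht0]; exact max_eq_right ht1.le
  obtain ⟨⟨e', s'⟩, hp', hfp'⟩ := hf.surj _ hyn
  have star : ∀ u : F, ‖u‖ ≤ 1 → max ‖e' - e‖ ‖s' - u‖ = max |t - 1| ‖s - u‖ := by
    intro u hu
    rw [← pnrm_sub, ← hf.iso _ _ hp' (norm_face he hu), hfp', hA1 u hu, ← hN]
    congr 1
    rw [map_sub]; module
  have hp'' := hp'
  rw [pnrm] at hp''
  have hs'1 : ‖s'‖ ≤ 1 := hp'' ▸ le_max_right _ _
  have a1 : |t - 1| = 1 - t := by rw [abs_sub_comm, abs_of_pos (by linarith)]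
  have h1 := star s hs.le
  rw [sub_self, norm_zero, a1, max_eq_left (by linarith : (0 : ℝ) ≤ 1 - t)] at h1
  have h2 := star s' hs'1
  rw [sub_self, norm_zero, a1, max_eq_left (norm_nonneg _)] at h2
  have h3 : ‖e' - e‖ ≤ 1 - t := h1 ▸ le_max_left _ _
  have h4 : 1 - t ≤ ‖e' - e‖ := h2 ▸ le_max_left _ _
  have hee : ‖e' - e‖ = 1 - t := le_antisymm h3 h4
  have hss : s' = s := by
    apply sphere_determined (ε := 1 - t) (by linarith) hs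
    intro u hu
    have := star u hu
    rwa [a1, hee] at this
  subst hss
  have h10 : e' = t • e := by
    apply gl_sep hΛ2
    intro φ hφ
    obtain ⟨ψ, -, hψ⟩ := gl_coord hf (hΛ1 φ hφ) (hΛ3 φ hφ) ![(e', s'), (e, 0), (e, s')]
      (by
        intro i
        fin_cases i
        · exact hp'
        · exact norm_face he (by simp)
        · exact norm_face he hs.le)
    have g0 : ψ (f (e', s')) = φ e' := hψ 0
    have g1 : ψ c = φ e := hψ 1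
    have g2 : ψ (f (e, s')) = φ e := hψ 2
    rw [hA1 s' hs.le, map_add, g1] at g2
    rw [hfp', map_add, map_smul, g1] at g0
    rw [map_smul, ← g0]
    have : ψ (A s') = 0 := by linarith
    rw [this, add_zero]
  rw [← hfp', h10]

lemma gl_good {a : E} (ha : ‖a‖ = 1) : GoodPt f a := by
  obtain ⟨A, hA1, hA2⟩ := leaf_map_of hf ha
    (fun u1 u2 h1 h2 => gl_mid hf hΛ1 hΛ2 hΛ3 ha h1 h2)
    (fun η r u1 u2 h2r h1 h2 h12 => gl_ext hf hΛ1 hΛ2 hΛ3 ha h2r h1 h2 h12)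
  exact ⟨A, hA2, hA1, fun t s ht0 ht1 hs => gl_side hf hΛ1 hΛ2 hΛ3 ha A hA1 hA2 ht0 ht1 hs⟩

omit hf hΛ1 hΛ2 hΛ3 in
/-- `E ⊕_∞ F` has the Mazur-Ulam property if `E` has a norming set `Λ` of functionals such that
every `x` of the unit ball is within distance `1 - φ x` of the face `{φ = 1}`; `F` is arbitrary. -/
theorem gl_mup (E : Type u) (F : Type v) [NormedAddCommGroup E] [NormedSpace ℝ E]
    [NormedAddCommGroup F] [NormedSpace ℝ F] [Nontrivial E] [Nontrivial F]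
    (Λ : Set (E →L[ℝ] ℝ)) (hΛ1 : ∀ φ ∈ Λ, ∀ x, φ x ≤ ‖x‖)
    (hΛ2 : ∀ x : E, ∀ ε : ℝ, 0 < ε → ∃ φ ∈ Λ, ‖x‖ - ε < φ x)
    (hΛ3 : ∀ φ ∈ Λ, ∀ x, ‖x‖ ≤ 1 → ∃ c, ‖c‖ ≤ 1 ∧ φ c = 1 ∧ ‖x - c‖ ≤ 1 - φ x) :
    MazurUlamProperty.{max u v, w} (E × F) := by
  intro Y _ _ f hf hs
  obtain ⟨e, he⟩ := exists_norm_eq E (zero_le_one' ℝ)
  obtain ⟨s, hs'⟩ := exists_norm_eq F (zero_le_one' ℝ)
  exact equiv_of_raw (fun g hg => asm_raw ⟨e, he⟩ ⟨s, hs'⟩ hg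
    (fun x hx ε hε => ⟨x, hx, by simpa using hε, gl_good hg hΛ1 hΛ2 hΛ3 hx⟩)) f hf hs

end Vale.Agent.P084
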