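import Vale.Agent.P084.U.Defs

/-! Leaf affinity from midpoint closure and extension closure of the image of a leaf. -/

namespace Vale.Agent.P084

open Metric Set

set_option linter.unusedSectionVars false

universe u v w

variable {E : Type u} {F : Type v} {W : Type w}
  [NormedAddCommGroup E] [NormedSpace ℝ E] [NormedAddCommGroup F] [NormedSpace ℝ F]
  [NormedAddCommGroup W] [NormedSpace ℝ W]

variable {f : E × F → W} (hf : SphIso f) {e0 : E} (he0 : ‖e0‖ = 1)
  (hmid : ∀ u1 u2 : F, ‖u1‖ < 1 → ‖u2‖ ≤ 1 →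
    ∃ v, ‖v‖ ≤ 1 ∧ f (e0, v) = (1 / 2 : ℝ) • (f (e0, u1) + f (e0, u2)))
  (hext : ∀ (η r : ℝ) (u1 u2 : F), 2 * r < η → ‖u1‖ ≤ 1 - η → ‖u2‖ ≤ 1 - η → ‖u1 - u2‖ ≤ r →
    ∃ v, ‖v‖ ≤ 1 ∧ f (e0, v) = (2 : ℝ) • f (e0, u1) - f (e0, u2))
include hf he0 hmid hext

lemma leaf_mid_local_g
    {η : ℝ} (hη : 0 < η) {ua ub : F} (ha : ‖ua‖ ≤ 1 - η) (hb : ‖ub‖ ≤ 1 - η)
    (hab : ‖ua - ub‖ ≤ η / 9) :
    f (e0, (1 / 2 : ℝ) • (ua + ub)) = (1 / 2 : ℝ) • (f (e0, ua) + f (e0, ub)) := by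
  set r0 : ℝ := η / 9 with hr0
  have hr0pos : 0 < r0 := by positivity
  have hr1 : 9 * r0 ≤ η := by rw [hr0]; linarith
  set S : Set F := {u | ‖u - ua‖ ≤ r0 ∧ ‖u - ub‖ ≤ r0} with hS
  have hSn : ∀ u ∈ S, ‖u‖ ≤ 1 - η / 2 := by
    intro u hu
    have := norm_add_le (u - ua) ua
    rw [sub_add_cancel] at this
    linarith [hu.1]
  have hiso1 : ∀ x y : F, ‖x‖ ≤ 1 → ‖y‖ ≤ 1 → ‖f (e0, x) - f (e0, y)‖ = ‖x - y‖ := by
    intro x y hx hy
    rw [hf.iso _ _ (norm_face he0 hx) (norm_face he0 hy), pnrm_sub, sub_self, norm_zero]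
    exact max_eq_right (norm_nonneg _)
  apply local_mid_abs (fun u => f (e0, u)) S
  · exact ⟨by rw [sub_self, norm_zero]; exact hr0pos.le, hab⟩
  · exact ⟨by rw [norm_sub_rev]; exact hab, by rw [sub_self, norm_zero]; exact hr0pos.le⟩
  · constructor
    · have : (1 / 2 : ℝ) • (ua + ub) - ua = (-(1 / 2) : ℝ) • (ua - ub) := by module
      rw [this, norm_smul, Real.norm_eq_abs, abs_neg, abs_of_nonneg (by norm_num)]
      linarith [norm_nonneg (ua - ub)]
    · have : (1 / 2 : ℝ) • (ua + ub) - ub = (1 / 2 : ℝ) • (ua - ub) := by module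
      rw [this, norm_smul, Real.norm_eq_abs, abs_of_nonneg (by norm_num)]
      linarith [norm_nonneg (ua - ub)]
  · intro x hx y hy
    exact hiso1 x y (by linarith [hSn x hx]) (by linarith [hSn y hy])
  · intro x hx
    constructor
    · have : ua + ub - x - ua = -(x - ub) := by abel
      rw [this, norm_neg]; exact hx.2
    · have : ua + ub - x - ub = -(x - ua) := by abel
      rw [this, norm_neg]; exact hx.1
  · intro x hx
    obtain ⟨vm, hvm, hfvm⟩ := hmid ua ub (by linarith : ‖ua‖ < 1) (by linarith : ‖ub‖ ≤ 1)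
    have hvma : ‖vm - ua‖ ≤ r0 / 2 := by
      rw [← hiso1 vm ua hvm (by linarith), hfvm]
      have : (1 / 2 : ℝ) • (f (e0, ua) + f (e0, ub)) - f (e0, ua)
          = (-(1 / 2) : ℝ) • (f (e0, ua) - f (e0, ub)) := by module
      rw [this, norm_smul, hiso1 ua ub (by linarith) (by linarith), Real.norm_eq_abs, abs_neg,
        abs_of_nonneg (by norm_num)]
      linarith
    have hvmn : ‖vm‖ ≤ 1 - η / 2 := by
      have := norm_add_le (vm - ua) ua
      rw [sub_add_cancel] at this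
      linarith
    have hvmx : ‖vm - x‖ ≤ 2 * r0 := by
      have e1 : vm - x = (vm - ua) - (x - ua) := by abel
      have := norm_sub_le (vm - ua) (x - ua)
      rw [← e1] at this
      linarith [hx.1]
    obtain ⟨v, hv, hfv⟩ := hext (η / 2) (2 * r0) vm x (by linarith)
      hvmn (hSn x hx) hvmx
    have hfv' : f (e0, v) = f (e0, ua) + f (e0, ub) - f (e0, x) := by
      rw [hfv, hfvm]; module
    have hx1 : ‖x‖ ≤ 1 := by linarith [hSn x hx]
    refine ⟨v, ⟨?_, ?_⟩, hfv'⟩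
    · rw [← hiso1 v ua hv (by linarith), hfv']
      have : f (e0, ua) + f (e0, ub) - f (e0, x) - f (e0, ua) = f (e0, ub) - f (e0, x) := by abel
      rw [this, hiso1 ub x (by linarith) hx1, norm_sub_rev]; exact hx.2
    · rw [← hiso1 v ub hv (by linarith), hfv']
      have : f (e0, ua) + f (e0, ub) - f (e0, x) - f (e0, ub) = f (e0, ua) - f (e0, x) := by abel
      rw [this, hiso1 ua x (by linarith) hx1, norm_sub_rev]; exact hx.1

lemma leaf_mid_global_g {ua ub : F}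
    (ha : ‖ua‖ < 1) (hb : ‖ub‖ < 1) :
    f (e0, (1 / 2 : ℝ) • (ua + ub)) = (1 / 2 : ℝ) • (f (e0, ua) + f (e0, ub)) := by
  set δ : ℝ := 1 - max ‖ua‖ ‖ub‖ with hδ
  have hδ0 : 0 < δ := by
    have := max_lt ha hb
    linarith
  have h := doubling (closedBall (0 : F) (1 - δ)) (convex_closedBall _ _)
    (fun u => f (e0, u)) (ε := δ / 9) (by positivity)
    (fun x hx y hy hxy => leaf_mid_local_g hf he0 hmid hext hδ0 (mem_closedBall_zero_iff.mp hx)
      (mem_closedBall_zero_iff.mp hy) hxy)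
  apply h
  · rw [mem_closedBall_zero_iff, hδ]
    have := le_max_left ‖ua‖ ‖ub‖
    linarith
  · rw [mem_closedBall_zero_iff, hδ]
    have := le_max_right ‖ua‖ ‖ub‖
    linarith

/-- `f` is affine on every leaf `{e} × B_F` -/
lemma leaf_map_of :
    ∃ A : F →L[ℝ] W, (∀ u, ‖u‖ ≤ 1 → f (e0, u) = f (e0, 0) + A u) ∧ ∀ u, ‖A u‖ = ‖u‖ := by
  apply slice_affine (fun u => f (e0, u))
  · intro u u' hu hu'
    rw [hf.iso _ _ (norm_face he0 hu) (norm_face he0 hu'), pnrm_sub, sub_self, norm_zero]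
    exact max_eq_right (norm_nonneg _)
  · intro u u' hu hu'
    exact leaf_mid_global_g hf he0 hmid hext hu hu'


end Vale.Agent.P084
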