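import Vale.Agent.P084.U.Face
import Vale.Agent.P084.U.Leaf

/-! Rotund points of `S_E` are good points of `E × F` (`E` arbitrary). -/

namespace Vale.Agent.P084

open Metric Set

set_option linter.unusedSectionVars false

universe u v w

variable {E : Type u} {F : Type v} {W : Type w}
  [NormedAddCommGroup E] [NormedSpace ℝ E] [NormedAddCommGroup F] [NormedSpace ℝ F]
  [NormedAddCommGroup W] [NormedSpace ℝ W]

/-- UR1. -/
lemma RotundPt.neg {a : E} (h : RotundPt a) : RotundPt (-a) := by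
  intro b hb hab
  have h1 : -b = a := by
    apply h (-b) (by rw [norm_neg]; exact hb)
    have e1 : a + -b = -(-a + b) := by abel
    rw [e1, norm_neg]
    exact hab
  rw [← h1, neg_neg]

/-- UR1.  Copy of `ant` (Sc2.lean): as there `‖x - e‖ = 2`, `‖x‖ = 1`; apply `hr` to `b = -x`. -/
lemma ant_r {e : E} {u : F} (hr : RotundPt e) (he : ‖e‖ = 1) (hu : ‖u‖ < 1) {y : E × F}
    (hy : ‖y‖ = 1) (h : ‖y - (e, u)‖ = 2) : y.1 = -e := by
  obtain ⟨x, v⟩ := y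
  rw [pnrm_sub] at h
  rw [pnrm] at hy
  have h1 : ‖x‖ ≤ 1 := hy ▸ le_max_left _ _
  have h2 : ‖v‖ ≤ 1 := hy ▸ le_max_right _ _
  have h3 : ‖v - u‖ < 2 := by
    have := norm_sub_le v u
    linarith
  have h4 : ‖x - e‖ = 2 := by
    rcases max_choice ‖x - e‖ ‖v - u‖ with h' | h'
    · rw [h'] at h; exact h
    · rw [h'] at h; linarith
  have h5 : ‖x‖ = 1 := by
    have := norm_sub_le x e
    linarith
  have h6 : -x = e := by
    apply hr (-x) (by rw [norm_neg]; exact h5)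
    have e1 : e + -x = -(x - e) := by abel
    rw [e1, norm_neg]
    exact h4
  change x = -e
  rw [← h6, neg_neg]

/-- UR2.  Product structure of a maximal face of the sphere of `E × F` that contains a point with
`‖u'‖ < 1`.  Sketch: for `p = (m_p, z_p) ∈ M` the point `(1/3) ((e', u') + p + (m, z))` lies in `M`, so
it has norm one; its second component has norm at most `(‖u'‖ + 2) / 3 < 1`, so
`‖e' + m_p + m‖ = 3`, which forces `‖m‖ = 1`, `‖m_p‖ = 1`, `‖m + m_p‖ = 2` (all norms are at most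
one).  So `‖(m, u) + p‖ = 2` (it is at least `‖m + m_p‖` and at most two) for every `p ∈ M`, and
`(m, u) ∈ M` by `IsMaxFace.mem_of_forall`. -/
lemma prod_face {M : Set (E × F)} (hM : IsMaxFace M) {e' : E} {u' : F} (hq : (e', u') ∈ M)
    (hu' : ‖u'‖ < 1) {m : E} {z : F} (hm : (m, z) ∈ M) :
    ‖m‖ = 1 ∧ ∀ u : F, ‖u‖ ≤ 1 → (m, u) ∈ M := by
  have hfst : ∀ p ∈ M, ‖p.1‖ ≤ 1 := fun p hp => (norm_fst_le p).trans (hM.2.1 p hp).le
  have hsnd : ∀ p ∈ M, ‖p.2‖ ≤ 1 := fun p hp => (norm_snd_le p).trans (hM.2.1 p hp).le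
  have hm1 : ‖m‖ ≤ 1 := hfst _ hm
  have hz1 : ‖z‖ ≤ 1 := hsnd _ hm
  have he1 : ‖e'‖ ≤ 1 := hfst _ hq
  have key : ∀ p ∈ M, 2 ≤ ‖m + p.1‖ := by
    intro p hp
    have hmid : (1 / 2 : ℝ) • p + (1 / 2 : ℝ) • (m, z) ∈ M :=
      hM.1 hp hm (by norm_num) (by norm_num) (by norm_num)
    have hw : (1 / 3 : ℝ) • (e', u') + (2 / 3 : ℝ) • ((1 / 2 : ℝ) • p + (1 / 2 : ℝ) • (m, z)) ∈ M :=
      hM.1 hq hmid (by norm_num) (by norm_num) (by norm_num)
    have hn := hM.2.1 _ hw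
    rw [Prod.norm_def] at hn
    have h2 : ‖((1 / 3 : ℝ) • (e', u') +
        (2 / 3 : ℝ) • ((1 / 2 : ℝ) • p + (1 / 2 : ℝ) • (m, z))).2‖ < 1 := by
      have e : ((1 / 3 : ℝ) • (e', u') +
        (2 / 3 : ℝ) • ((1 / 2 : ℝ) • p + (1 / 2 : ℝ) • (m, z))).2 =
          (1 / 3 : ℝ) • u' + ((1 / 3 : ℝ) • p.2 + (1 / 3 : ℝ) • z) := by
        simp only [Prod.snd_add, Prod.smul_snd]
        module
      rw [e]
      have t1 := norm_add_le ((1 / 3 : ℝ) • u') ((1 / 3 : ℝ) • p.2 + (1 / 3 : ℝ) • z)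
      have t2 := norm_add_le ((1 / 3 : ℝ) • p.2) ((1 / 3 : ℝ) • z)
      rw [norm_smul, norm_smul] at t2
      rw [norm_smul] at t1
      have hp2 := hsnd p hp
      norm_num at t1 t2
      linarith
    have h1 : ‖((1 / 3 : ℝ) • (e', u') +
        (2 / 3 : ℝ) • ((1 / 2 : ℝ) • p + (1 / 2 : ℝ) • (m, z))).1‖ = 1 := by
      rcases max_choice ‖((1 / 3 : ℝ) • (e', u') +
        (2 / 3 : ℝ) • ((1 / 2 : ℝ) • p + (1 / 2 : ℝ) • (m, z))).1‖ ‖((1 / 3 : ℝ) • (e', u') +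
        (2 / 3 : ℝ) • ((1 / 2 : ℝ) • p + (1 / 2 : ℝ) • (m, z))).2‖ with hc | hc
      · rw [hc] at hn; exact hn
      · rw [hc] at hn; linarith
    have e : ((1 / 3 : ℝ) • (e', u') +
        (2 / 3 : ℝ) • ((1 / 2 : ℝ) • p + (1 / 2 : ℝ) • (m, z))).1 =
          (1 / 3 : ℝ) • e' + (1 / 3 : ℝ) • (m + p.1) := by
      simp only [Prod.fst_add, Prod.smul_fst]
      module
    rw [e] at h1
    have t1 := norm_add_le ((1 / 3 : ℝ) • e') ((1 / 3 : ℝ) • (m + p.1))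
    rw [norm_smul, norm_smul, h1] at t1
    norm_num at t1
    linarith
  have hmn : ‖m‖ = 1 := by
    have h := key _ hm
    have t := norm_add_le m m
    simp only at h
    linarith
  refine ⟨hmn, fun u hu => ?_⟩
  have hmu : ‖(m, u)‖ = 1 := by
    rw [Prod.norm_def]
    simp only
    rw [hmn]
    exact max_eq_left hu
  refine hM.mem_of_forall hmu (fun p hp => ?_)
  apply le_antisymm
  · have := norm_add_le (m, u) p
    rw [hmu, hM.2.1 p hp] at this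
    linarith
  · exact (key p hp).trans (norm_fst_le ((m, u) + p))

variable {f : E × F → W} (hf : SphIso f)
include hf

/-- UR3.  `flat_leaf` (Sc2.lean) without strict convexity.  Sketch: let `f y = - f (e, u')`,
`y = (x, v)`; `‖y - (e, u')‖ = 2` (`hf.anti_two`) and `‖v - u'‖ < 2`, so `‖x - e‖ = 2`; hence
`‖(e, u) - y‖ = 2` and `‖f (e, u) + f (e, u')‖ = ‖f (e, u) - f y‖ = 2`. -/
lemma flat_leaf_g {e : E} (he : ‖e‖ = 1) {u u' : F} (hu : ‖u‖ ≤ 1) (hu' : ‖u'‖ < 1) :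
    ‖f (e, u) + f (e, u')‖ = 2 := by
  have n1 := norm_face (F := F) he hu
  have n2 := norm_face (F := F) he hu'.le
  obtain ⟨y, hy, hfy⟩ := hf.surj (- f (e, u')) (by rw [norm_neg]; exact hf.norm _ n2)
  have h2 := hf.anti_two n2 hy hfy
  have e1 : f (e, u) + f (e, u') = f (e, u) - f y := by rw [hfy]; abel
  rw [e1, hf.iso _ _ n1 hy]
  apply le_antisymm
  · have := norm_sub_le (e, u) y
    rw [n1, hy] at this; linarith
  · obtain ⟨x, v⟩ := y
    rw [pnrm_sub] at h2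
    rw [pnrm] at hy
    have hv1 : ‖v‖ ≤ 1 := hy ▸ le_max_right _ _
    have h3 : ‖v - u'‖ < 2 := by
      have := norm_sub_le v u'
      linarith
    have h4 : ‖x - e‖ = 2 := by
      rcases max_choice ‖x - e‖ ‖v - u'‖ with h' | h'
      · rw [h'] at h2; exact h2
      · rw [h'] at h2; linarith
    rw [pnrm_sub]
    refine le_trans ?_ (le_max_left _ _)
    rw [norm_sub_rev, h4]

/-- UR3.  Copy of `leaf_mid` (Sc2.lean) with `flat_leaf_g`, `ant_r` instead of `flat_leaf`, `ant`. -/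
lemma leaf_mid_r {e : E} (hr : RotundPt e) (he : ‖e‖ = 1) {u1 u2 : F} (h1 : ‖u1‖ < 1)
    (h2 : ‖u2‖ ≤ 1) :
    ∃ v, ‖v‖ ≤ 1 ∧ f (e, v) = (1 / 2 : ℝ) • (f (e, u1) + f (e, u2)) := by
  have n1 := norm_face (F := F) he h1.le
  have n2 := norm_face (F := F) he h2
  have hn : ‖(1 / 2 : ℝ) • (f (e, u1) + f (e, u2))‖ = 1 := by
    rw [norm_smul, add_comm, flat_leaf_g hf he h2 h1]; norm_num
  obtain ⟨q, hq, hfq⟩ := hf.surj _ hn
  have hq' : ‖-q‖ = 1 := by rw [norm_neg]; exact hq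
  have h3 : ‖f q - f (-q)‖ = 2 := by
    rw [hf.iso q (-q) hq hq']
    have : q - -q = (2 : ℝ) • q := by module
    rw [this, norm_smul, hq]; norm_num
  have h4 : f q - f (-q) = (1 / 2 : ℝ) • ((f (e, u1) - f (-q)) + (f (e, u2) - f (-q))) := by
    rw [hfq]; module
  have h5 : ‖f (e, u1) - f (-q)‖ ≤ 2 := by
    rw [hf.iso _ _ n1 hq']
    have := norm_sub_le ((e, u1) : E × F) (-q)
    rw [n1, hq'] at this; linarith
  have h6 : ‖f (e, u2) - f (-q)‖ ≤ 2 := by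
    rw [hf.iso _ _ n2 hq']
    have := norm_sub_le ((e, u2) : E × F) (-q)
    rw [n2, hq'] at this; linarith
  have h7 : 2 ≤ ‖f (e, u1) - f (-q)‖ := by
    have := norm_add_le (f (e, u1) - f (-q)) (f (e, u2) - f (-q))
    rw [h4, norm_smul, Real.norm_of_nonneg (by norm_num)] at h3
    linarith
  have h8 : ‖-q - (e, u1)‖ = 2 := by
    rw [norm_sub_rev, ← hf.iso _ _ n1 hq']
    exact le_antisymm h5 h7
  have h9 := ant_r hr he h1 hq' h8
  have h10 : q.1 = e := by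
    have : -q.1 = -e := h9
    exact neg_injective this
  refine ⟨q.2, ?_, ?_⟩
  · calc ‖q.2‖ ≤ ‖q‖ := norm_snd_le q
      _ = 1 := hq
  · rw [← hfq, ← h10]

/-- UR4 (the heart; no rotundity here).  Notation `k1 = f (e0, u1)`, `k2 = f (e0, u2)`,
`wh = f (e', u')`, `w = c • wh = 2 k1 - k2`.
Sketch.  Take a maximal face `M ∋ (e', u')` (`exists_maxFace`, `norm_face`).  Let
`δ = sInf {d | ∃ m, (m, 0) ∈ M ∧ d = ‖e0 - m‖}` (nonempty by `prod_face`, bounded below by `0`).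
Fix `ε > 0` and `m` with `(m, 0) ∈ M`, `‖e0 - m‖ < δ + ε`.  `p = (m, u2) ∈ M` (`prod_face`).
`‖wh + f p‖ = 2` (`IsMaxFace.norm_add`, `mf_F1`), so `yv = (1/2) (wh + f p)` has norm one; let
`f q = yv`, `‖q‖ = 1`.  `q ∈ M` by `mf_mid`, so `(q.1, 0) ∈ M` by `prod_face`, so
`δ ≤ ‖e0 - q.1‖ ≤ ‖(e0, u1) - q‖ = ‖k1 - yv‖`.  As `k1 - yv = (1/2) ((w - wh) + (k2 - f p))`,
`‖w - wh‖ = c - 1`, `‖k2 - f p‖ = ‖e0 - m‖ < δ + ε`, we get `δ ≤ c - 1 + ε`.
Let `ψ` be a dual vector of `wh + f p`: `ψ wh = 1 = ψ (f p)`.  Then `ψ k2 ≥ 1 - ‖e0 - m‖ > 1 - δ - ε`,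
`ψ w = c`, `2 ψ k1 = ψ w + ψ k2 > c + 1 - δ - ε ≥ 2 - 2 ε`.  So `‖wh + k1‖ ≥ ψ wh + ψ k1 > 2 - ε`.
`ε` was arbitrary and `‖wh + k1‖ ≤ 2`. -/
lemma crux_fact {e0 : E} (he0 : ‖e0‖ = 1) {u1 u2 : F} (h1 : ‖u1‖ < 1) (h2 : ‖u2‖ < 1)
    {e' : E} {u' : F} (he' : ‖e'‖ = 1) (hu' : ‖u'‖ < 1) {c : ℝ} (hc : 1 ≤ c)
    (hw : c • f (e', u') = (2 : ℝ) • f (e0, u1) - f (e0, u2)) :
    ‖f (e', u') + f (e0, u1)‖ = 2 := by
  have n1 : ‖((e0, u1) : E × F)‖ = 1 := norm_face he0 h1.le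
  have n2 : ‖((e0, u2) : E × F)‖ = 1 := norm_face he0 h2.le
  have n3 : ‖((e', u') : E × F)‖ = 1 := norm_face he' hu'.le
  have nk1 : ‖f (e0, u1)‖ = 1 := hf.norm _ n1
  have nk2 : ‖f (e0, u2)‖ = 1 := hf.norm _ n2
  have nwh : ‖f (e', u')‖ = 1 := hf.norm _ n3
  generalize hk1 : f (e0, u1) = k1 at *
  generalize hk2 : f (e0, u2) = k2 at *
  generalize hwh : f (e', u') = wh at *
  obtain ⟨M, hM, hq⟩ := exists_maxFace n3
  have hup : ‖wh + k1‖ ≤ 2 := by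
    have := norm_add_le wh k1
    linarith
  by_contra hne
  have hlt : ‖wh + k1‖ < 2 := lt_of_le_of_ne hup hne
  obtain ⟨ε, hε⟩ : ∃ ε : ℝ, ε = 2 - ‖wh + k1‖ := ⟨_, rfl⟩
  have hεpos : 0 < ε := by linarith
  have hDne : ({d | ∃ m : E, ((m, (0 : F)) : E × F) ∈ M ∧ d = ‖e0 - m‖} : Set ℝ).Nonempty :=
    ⟨‖e0 - e'‖, e', (prod_face hM hq hu' hq).2 0 (by simp), rfl⟩
  have hDbdd : BddBelow ({d | ∃ m : E, ((m, (0 : F)) : E × F) ∈ M ∧ d = ‖e0 - m‖} : Set ℝ) :=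
    ⟨0, by rintro d ⟨m, -, rfl⟩; exact norm_nonneg _⟩
  obtain ⟨d, ⟨m, hmM, rfl⟩, hdlt⟩ := Real.lt_sInf_add_pos hDne hεpos
  generalize hδ : sInf ({d | ∃ m : E, ((m, (0 : F)) : E × F) ∈ M ∧ d = ‖e0 - m‖} : Set ℝ) = δ
    at hdlt
  have hpf := prod_face hM hq hu' hmM
  have hp : ((m, u2) : E × F) ∈ M := hpf.2 u2 h2.le
  have np : ‖((m, u2) : E × F)‖ = 1 := hM.2.1 _ hp
  have h2' : ‖f (e', u') + f (m, u2)‖ = 2 := mf_F1 hf n3 np (hM.norm_add hq hp)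
  have nfp : ‖f (m, u2)‖ = 1 := hf.norm _ np
  have nyv : ‖(1 / 2 : ℝ) • (f (e', u') + f (m, u2))‖ = 1 := by
    rw [norm_smul, h2']
    norm_num
  obtain ⟨q, nq, hfq⟩ := hf.surj _ nyv
  have hqM : q ∈ M := mf_mid hf hM hq hp nq hfq
  have hq1 : ((q.1, (0 : F)) : E × F) ∈ M :=
    (prod_face hM hq hu' (m := q.1) (z := q.2) hqM).2 0 (by simp)
  have hδle : δ ≤ ‖e0 - q.1‖ := by
    rw [← hδ]
    exact csInf_le hDbdd ⟨q.1, hq1, rfl⟩
  have hle1 : ‖e0 - q.1‖ ≤ ‖((e0, u1) : E × F) - q‖ := norm_fst_le (((e0, u1) : E × F) - q)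
  have hiso1 : ‖f (e0, u1) - f q‖ = ‖((e0, u1) : E × F) - q‖ := hf.iso _ _ n1 nq
  have hn3 : ‖f (e0, u2) - f (m, u2)‖ = ‖e0 - m‖ := by
    rw [hf.iso _ _ n2 np, pnrm_sub, sub_self, norm_zero]
    exact max_eq_left (norm_nonneg _)
  rw [hfq, hk1, hwh] at hiso1
  rw [hk2] at hn3
  rw [hwh] at h2'
  generalize f (m, u2) = fp at *
  have hdecomp : k1 - (1 / 2 : ℝ) • (wh + fp) = (1 / 2 : ℝ) • (((c - 1) • wh) + (k2 - fp)) := by
    have : (c - 1) • wh = (2 : ℝ) • k1 - k2 - wh := by rw [sub_smul, one_smul, hw]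
    rw [this]
    module
  have hbound : ‖k1 - (1 / 2 : ℝ) • (wh + fp)‖ ≤ (1 / 2) * ((c - 1) + ‖e0 - m‖) := by
    rw [hdecomp, norm_smul]
    have h3 := norm_add_le ((c - 1) • wh) (k2 - fp)
    rw [norm_smul, nwh, hn3, Real.norm_eq_abs, abs_of_nonneg (by linarith)] at h3
    rw [Real.norm_eq_abs, abs_of_nonneg (by norm_num)]
    linarith
  have hδc : δ < c - 1 + ε := by linarith
  obtain ⟨ψ, hψ1, hψ2⟩ := exists_dual_vector ℝ (wh + fp) (by rw [h2']; norm_num)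
  have hle : ∀ z : W, ψ z ≤ ‖z‖ := by
    intro z
    have h3 := ψ.le_opNorm z
    rw [hψ1, one_mul, Real.norm_eq_abs] at h3
    exact (le_abs_self _).trans h3
  have hsum : ψ wh + ψ fp = 2 := by
    rw [← map_add, hψ2, h2']
    simp
  have ha := hle wh
  have hb := hle fp
  rw [nwh] at ha
  rw [nfp] at hb
  have hψwh : ψ wh = 1 := by linarith
  have hψfp : ψ fp = 1 := by linarith
  have hc1 := hle (fp - k2)
  rw [norm_sub_rev, hn3, map_sub] at hc1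
  have hc2 : c * ψ wh = 2 * ψ k1 - ψ k2 := by
    have := congrArg ψ hw
    simpa [map_sub, map_smul] using this
  have hc3 := hle (wh + k1)
  rw [map_add] at hc3
  rw [hψwh] at hc2
  linarith

/-- UR5.  Copy of `crux'` (Sd2.lean).  The first part (up to `he' : ‖e'‖ = 1`) is unchanged.  Replace
the block from the comment Claim A to `hfl3` by `crux_fact` (with `c = ‖w‖`, `hww`).  Then as there:
`-k1 = f y1`, `y1.1 = -e0` (`ant_r`), `‖e' + e0‖ = 2`, so `e' = e0` by `hr`; the end is unchanged with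
`flat_leaf_g` instead of `flat_leaf`. -/
lemma crux_r {e0 : E} (hr : RotundPt e0) (he0 : ‖e0‖ = 1)
    {η r : ℝ} (h2r : 2 * r < η)
    {u1 u2 : F} (h1 : ‖u1‖ ≤ 1 - η) (h2 : ‖u2‖ ≤ 1 - η) (h12 : ‖u1 - u2‖ ≤ r) :
    ∃ v, ‖v‖ ≤ 1 ∧ f (e0, v) = (2 : ℝ) • f (e0, u1) - f (e0, u2) := by
  have hr0 : 0 ≤ r := le_trans (norm_nonneg _) h12
  have hη0 : 0 < η := by linarith
  have hη1 : η ≤ 1 := by linarith [norm_nonneg u1]
  have n1 : ‖((e0, u1) : E × F)‖ = 1 := norm_face he0 (by linarith)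
  have n2 : ‖((e0, u2) : E × F)‖ = 1 := norm_face he0 (by linarith)
  set k1 := f (e0, u1) with hk1
  set k2 := f (e0, u2) with hk2
  have nk1 : ‖k1‖ = 1 := hf.norm _ n1
  have nk2 : ‖k2‖ = 1 := hf.norm _ n2
  set w : W := (2 : ℝ) • k1 - k2 with hw
  have hk12 : ‖k1 - k2‖ ≤ r := by
    rw [hk1, hk2, hf.iso _ _ n1 n2, pnrm_sub, sub_self, norm_zero]
    exact max_le hr0 h12
  have hwk : ‖w - k1‖ ≤ r := by
    have : w - k1 = k1 - k2 := by rw [hw]; module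
    rw [this]; exact hk12
  have hwk2 : w + k2 = (2 : ℝ) • k1 := by rw [hw]; abel
  have hwk2n : ‖w + k2‖ = 2 := by rw [hwk2, norm_smul, nk1]; norm_num
  have hw1 : 1 ≤ ‖w‖ := by
    have := norm_add_le w k2
    rw [hwk2n, nk2] at this; linarith
  have hw2 : ‖w‖ ≤ 1 + r := by
    have := norm_add_le k1 (w - k1)
    rw [add_sub_cancel] at this
    linarith
  have hwpos : 0 < ‖w‖ := by linarith
  set wh : W := ‖w‖⁻¹ • w with hwh
  have hwhn : ‖wh‖ = 1 := by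
    rw [hwh, norm_smul, norm_inv, norm_norm, inv_mul_cancel₀ hwpos.ne']
  have hww : w = ‖w‖ • wh := by
    rw [hwh, smul_smul, mul_inv_cancel₀ hwpos.ne', one_smul]
  have hdiff : ‖w - wh‖ = ‖w‖ - 1 := by
    have : w - wh = (‖w‖ - 1) • wh := by
      rw [sub_smul, one_smul, ← hww]
    rw [this, norm_smul, hwhn, mul_one, Real.norm_of_nonneg (by linarith)]
  obtain ⟨⟨e', u'⟩, hp, hfp⟩ := hf.surj wh hwhn
  have hpa : ‖((e', u') : E × F) - (e0, u1)‖ ≤ 2 * r := by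
    rw [← hf.iso _ _ hp n1, hfp]
    have e1 : wh - k1 = (w - k1) - (w - wh) := by abel
    rw [← hk1, e1]
    have := norm_sub_le (w - k1) (w - wh)
    linarith
  rw [pnrm_sub] at hpa
  have hd1 : ‖e' - e0‖ ≤ 2 * r := le_trans (le_max_left _ _) hpa
  have hd2 : ‖u' - u1‖ ≤ 2 * r := le_trans (le_max_right _ _) hpa
  have hu' : ‖u'‖ < 1 := by
    have := norm_add_le (u' - u1) u1
    rw [sub_add_cancel] at this
    linarith
  have he' : ‖e'‖ = 1 := by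
    rw [pnrm] at hp
    rcases max_choice ‖e'‖ ‖u'‖ with h | h
    · rw [h] at hp; exact hp
    · rw [h] at hp; linarith
  have hfl3 : ‖wh + k1‖ = 2 := by
    rw [← hfp]
    exact crux_fact hf he0 (by linarith : ‖u1‖ < 1) (by linarith : ‖u2‖ < 1) he' hu' hw1
      (by rw [hfp, ← hww])
  obtain ⟨y1, hy1, hfy1⟩ := hf.surj (-k1) (by rw [norm_neg]; exact nk1)
  have h3 := hf.anti_two n1 hy1 hfy1
  have h4 := ant_r hr he0 (by linarith : ‖u1‖ < 1) hy1 h3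
  have hsum : ‖e' + e0‖ = 2 := by
    have e1 : wh + k1 = f (e', u') - f y1 := by rw [hfy1, hfp]; abel
    rw [e1, hf.iso _ _ hp hy1] at hfl3
    obtain ⟨t, z⟩ := y1
    change t = -e0 at h4
    rw [pnrm_sub, h4, sub_neg_eq_add] at hfl3
    have hz : ‖z‖ ≤ 1 := by
      rw [pnrm] at hy1
      exact hy1 ▸ le_max_right _ _
    have hlt : ‖u' - z‖ < 2 := by
      have := norm_sub_le u' z
      linarith
    rcases max_choice ‖e' + e0‖ ‖u' - z‖ with h | h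
    · rw [h] at hfl3; exact hfl3
    · rw [h] at hfl3; linarith
  have hee : e' = e0 := hr e' he' (by rw [add_comm]; exact hsum)
  subst hee
  have h5 := flat_leaf_g hf he' (by linarith : ‖u2‖ ≤ 1) hu'
  rw [hfp, ← hk2] at h5
  have h6 := norm_add_smul_of_flat nk2 hwhn h5 hwpos.le
  rw [← hww, add_comm, hwk2n] at h6
  have hw1' : ‖w‖ = 1 := by linarith
  refine ⟨u', hu'.le, ?_⟩
  rw [hfp, hwh, hw1', inv_one, one_smul]

/-- UR6.  Copy of `pole` (Sc3.lean) with `ant_r` (for `e` and for `-e`, `RotundPt.neg`). -/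
lemma pole_r {e : E} (hr : RotundPt e) (he : ‖e‖ = 1) : f (-e, 0) = - f (e, 0) := by
  have n0 : ‖((e, 0) : E × F)‖ = 1 := norm_face he (by simp)
  have he' : ‖-e‖ = 1 := by rw [norm_neg]; exact he
  obtain ⟨y, hy, hfy⟩ := hf.surj (- f (e, 0)) (by rw [norm_neg]; exact hf.norm _ n0)
  have h2 := hf.anti_two n0 hy hfy
  have h3 := ant_r hr he (by simp) hy h2
  obtain ⟨t, u0⟩ := y
  change t = -e at h3
  subst h3
  have hu0 : u0 = 0 := by
    by_contra hne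
    have hpos : 0 < ‖u0‖ := norm_pos_iff.mpr hne
    have hu01 : ‖u0‖ ≤ 1 := by
      calc ‖u0‖ ≤ ‖((-e, u0) : E × F)‖ := norm_snd_le ((-e, u0) : E × F)
        _ = 1 := hy
    set t' : ℝ := 1 - ‖u0‖ / 2 with ht'
    have ht'0 : 0 < t' := by linarith
    set w : F := (-(t' / ‖u0‖)) • u0 with hw
    have hwn : ‖w‖ = t' := by
      rw [hw, norm_smul, norm_neg, Real.norm_of_nonneg (by positivity), div_mul_cancel₀ _ hpos.ne']
    have hw1 : ‖w‖ < 1 := by rw [hwn]; linarith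
    have n5 : ‖((-e, w) : E × F)‖ = 1 := norm_face he' hw1.le
    obtain ⟨z, hz, hfz⟩ := hf.surj (- f (-e, w)) (by rw [norm_neg]; exact hf.norm _ n5)
    have h4 := hf.anti_two n5 hz hfz
    have h5 := ant_r hr.neg he' hw1 hz h4
    obtain ⟨t2, uw⟩ := z
    change t2 = - -e at h5
    rw [neg_neg] at h5
    subst h5
    have huw : ‖uw‖ ≤ 1 := by
      calc ‖uw‖ ≤ ‖((t2, uw) : E × F)‖ := norm_snd_le ((t2, uw) : E × F)
        _ = 1 := hz
    have h6 := hf.iso _ _ n5 hy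
    rw [pnrm_sub, sub_self, norm_zero, max_eq_right (norm_nonneg _)] at h6
    have e1 : f (-t2, w) - f (-t2, u0) = -(f (t2, uw) - f (t2, 0)) := by
      rw [hfy, hfz]; abel
    rw [e1, norm_neg, hf.iso _ _ hz n0, pnrm_sub, sub_self, norm_zero, sub_zero,
      max_eq_right (norm_nonneg _)] at h6
    have e2 : w - u0 = (-(t' / ‖u0‖ + 1)) • u0 := by rw [hw]; module
    have h7 : ‖w - u0‖ = t' + ‖u0‖ := by
      rw [e2, norm_smul, norm_neg, Real.norm_of_nonneg (by positivity), add_mul, one_mul,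
        div_mul_cancel₀ _ hpos.ne']
    rw [h7] at h6
    linarith
  rw [← hfy, hu0]

omit hf in
lemma rot_end {e e' : E} (hr : RotundPt e) (he : ‖e‖ = 1) {t : ℝ} (ht0 : 0 < t) (ht1 : t < 1)
    (hee : ‖e' - e‖ = 1 - t) (h6 : ‖e' + e‖ = t + 1) : e' = t • e := by
  have hne : ‖e‖ ≠ 0 := by
    rw [he]; exact one_ne_zero
  obtain ⟨θ, hθ1, hθe⟩ := exists_dual_vector ℝ e hne
  have hθe' : θ e = 1 := by
    rw [hθe, he]; rfl
  have hle : ∀ x : E, θ x ≤ ‖x‖ := by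
    intro x
    have h1 := θ.le_opNorm x
    rw [hθ1, one_mul] at h1
    exact le_trans (le_abs_self _) h1
  have p1 : (0 : ℝ) < 1 - t := by linarith
  -- θ (e - e') = 1 - t
  have b1 : θ (e - e') ≤ 1 - t := by
    have := hle (e - e')
    rwa [norm_sub_rev, hee] at this
  have b2 : θ (e' + e) ≤ t + 1 := by
    have := hle (e' + e)
    rwa [h6] at this
  have b3 : θ (e - e') + θ (e' + e) = 2 := by
    rw [← map_add]
    have : e - e' + (e' + e) = (2 : ℝ) • e := by module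
    rw [this, map_smul, hθe']
    norm_num
  have b4 : θ (e - e') = 1 - t := by linarith
  set a₁ : E := (1 - t)⁻¹ • (e - e') with ha₁
  have n1 : ‖a₁‖ = 1 := by
    rw [ha₁, norm_smul, norm_sub_rev, hee, Real.norm_of_nonneg (by positivity)]
    exact inv_mul_cancel₀ p1.ne'
  have t1 : θ a₁ = 1 := by
    rw [ha₁, map_smul, b4, smul_eq_mul]
    exact inv_mul_cancel₀ p1.ne'
  have n2 : ‖e + a₁‖ = 2 := by
    apply le_antisymm
    · calc ‖e + a₁‖ ≤ ‖e‖ + ‖a₁‖ := norm_add_le _ _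
        _ = 2 := by rw [he, n1]; norm_num
    · have := hle (e + a₁)
      rw [map_add, hθe', t1] at this
      linarith
  have h := hr a₁ n1 n2
  have h2 : e - e' = (1 - t) • e := by
    have h0 : (1 - t) • a₁ = e - e' := by
      rw [ha₁, smul_smul, mul_inv_cancel₀ p1.ne', one_smul]
    rw [← h0, h]
  have h3 : e' = e - (1 - t) • e := by
    rw [← h2]; abel
  rw [h3]
  module

/-- UR7.  Copy of `side_open` (Sc3.lean) with `pole_r`.  Only the end changes: from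
`‖e' - e‖ = 1 - t` and `‖e' + e‖ = 1 + t` deduce `e' = t • e`: the unit vectors
`a₁ = (1 - t)⁻¹ • (e - e')`, `a₂ = (1 + t)⁻¹ • (e + e')` satisfy
`e = ((1 - t) / 2) • a₁ + ((1 + t) / 2) • a₂`; a dual vector `θ` of `e` gives `θ a₁ = 1`, so
`‖e + a₁‖ = 2`, so `a₁ = e` by `hr`, i.e. `e' = t • e`. -/
lemma side_r {e : E} (hr : RotundPt e) (he : ‖e‖ = 1) (A : F →L[ℝ] W)
    (hA1 : ∀ u, ‖u‖ ≤ 1 → f (e, u) = f (e, 0) + A u) (hA2 : ∀ u, ‖A u‖ = ‖u‖)
    {t : ℝ} (ht0 : 0 < t) (ht1 : t < 1) {s : F} (hs : ‖s‖ = 1) :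
    f (t • e, s) = t • f (e, 0) + A s := by
  set c : W := f (e, 0) with hc
  have hN := slice_norm c A (fun u hu => by rw [← hA1 u hu]; exact hf.norm _ (norm_face he hu)) hA2
  have hyn : ‖t • c + A s‖ = 1 := by
    rw [hN, hs, abs_of_pos ht0]; exact max_eq_right ht1.le
  obtain ⟨⟨e', s'⟩, hp', hfp'⟩ := hf.surj _ hyn
  have star : ∀ u : F, ‖u‖ ≤ 1 → max ‖e' - e‖ ‖s' - u‖ = max |t - 1| ‖s - u‖ := by
    intro u hu
    rw [← pnrm_sub, ← hf.iso _ _ hp' (norm_face he hu), hfp', hA1 u hu, ← hN]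
    congr 1
    rw [map_sub]; module
  have hp'' := hp'
  rw [pnrm] at hp''
  have hs'1 : ‖s'‖ ≤ 1 := hp'' ▸ le_max_right _ _
  have a1 : |t - 1| = 1 - t := by rw [abs_sub_comm, abs_of_pos (by linarith)]
  have h1 := star s hs.le
  rw [sub_self, norm_zero, a1, max_eq_left (by linarith : (0 : ℝ) ≤ 1 - t)] at h1
  have h2 := star s' hs'1
  rw [sub_self, norm_zero, a1, max_eq_left (norm_nonneg _)] at h2
  have h3 : ‖e' - e‖ ≤ 1 - t := h1 ▸ le_max_left _ _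
  have h4 : 1 - t ≤ ‖e' - e‖ := h2 ▸ le_max_left _ _
  have hee : ‖e' - e‖ = 1 - t := le_antisymm h3 h4
  have hss : s' = s := by
    apply sphere_determined (ε := 1 - t) (by linarith) hs
    intro u hu
    have := star u hu
    rwa [a1, hee] at this
  subst hss
  have he' : ‖-e‖ = 1 := by rw [norm_neg]; exact he
  have h5 := hf.iso _ _ hp' (norm_face (F := F) he' (by simp : ‖(0 : F)‖ ≤ 1))
  rw [hfp', pole_r hf hr he, ← hc, pnrm_sub, sub_zero, hs, sub_neg_eq_add, sub_neg_eq_add] at h5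
  have e1 : t • c + A s' + c = (t + 1) • c + A s' := by module
  rw [e1, hN, hs, abs_of_pos (by linarith), max_eq_left (by linarith)] at h5
  have h6 : ‖e' + e‖ = t + 1 := by
    rcases max_choice ‖e' + e‖ 1 with h | h
    · rw [h] at h5; exact h5.symm
    · rw [h] at h5; linarith
  have h10 : e' = t • e := rot_end hr he ht0 ht1 hee h6
  rw [← hfp', h10]

lemma rot_good {a : E} (ha : ‖a‖ = 1) (hr : RotundPt a) : GoodPt f a := by
  obtain ⟨A, hA1, hA2⟩ := leaf_map_of hf ha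
    (fun u1 u2 h1 h2 => leaf_mid_r hf hr ha h1 h2)
    (fun η r u1 u2 h2r h1 h2 h12 => crux_r hf hr ha h2r h1 h2 h12)
  exact ⟨A, hA2, hA1, fun t s ht0 ht1 hs => side_r hf hr ha A hA1 hA2 ht0 ht1 hs⟩

end Vale.Agent.P084
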