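import Vale.Agent.P084.U.Defs

/-! In a two-dimensional space every unit vector is rotund or a limit of flat unit vectors. -/

namespace Vale.Agent.P084

open Metric Set

set_option linter.unusedSectionVars false

universe u

variable {E : Type u} [NormedAddCommGroup E] [NormedSpace ℝ E]

/-- UT1.  Sketch.  Let `φ` be a dual vector of `x + b`: `‖φ‖ = 1`, `φ x = φ b = 1`, `φ y ≤ ‖y‖`.
For `α, β ≥ 0`: `‖α x + β b‖ = α + β = φ (α x + β b)` (`≤` triangle inequality, `≥` by `φ`).
`x, b` are linearly independent (`b = c x` forces `c = 1` as `φ b = φ x = 1`), so they form a basis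
(`finrank = 2`; e.g. `basisOfLinearIndependentOfCardEqFinrank`, `LinearIndependent.pair_iff`).
`E` is finite dimensional (`Module.finite_of_finrank_pos` or `FiniteDimensional.of_finrank_pos`),
so the two coordinate functionals are continuous
(`LinearMap.continuous_of_finiteDimensional`, then `LinearMap.mkContinuous`/`toContinuousLinearMap`),
hence bounded by `K ‖v‖`.  With `ρ = min l (1 - l) / (K + 1)`: if `‖v‖ < ρ`, `v = α x + β b`, then
`|α|, |β| < min l (1 - l)`, so `a + v = (1 - l + α) x + (l + β) b` has nonnegative coefficients. -/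
lemma seg_flat (h2 : Module.finrank ℝ E = 2) {x b : E} (hx : ‖x‖ = 1) (hb : ‖b‖ = 1)
    (hxb : ‖x + b‖ = 2) (hne : b ≠ x) {l : ℝ} (hl0 : 0 < l) (hl1 : l < 1) :
    ‖(1 - l) • x + l • b‖ = 1 ∧ FlatPt ((1 - l) • x + l • b) := by
  classical
  have hxb0 : ‖x + b‖ ≠ 0 := by
    rw [hxb]
    norm_num
  obtain ⟨φ, hφ1, hφ2⟩ := exists_dual_vector ℝ (x + b) hxb0
  have hφle : ∀ y : E, φ y ≤ ‖y‖ := by
    intro y
    have := φ.le_opNorm y
    rw [hφ1, one_mul] at this
    exact le_trans (le_abs_self _) (by simpa using this)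
  have hsum : φ x + φ b = 2 := by
    have : φ (x + b) = 2 := by
      rw [hφ2, hxb]; norm_num
    rwa [map_add] at this
  have hφx : φ x = 1 := by
    have h1 := hφle x
    have h3 := hφle b
    rw [hx] at h1
    rw [hb] at h3
    linarith
  have hφb : φ b = 1 := by linarith
  have hcone : ∀ α β : ℝ, 0 ≤ α → 0 ≤ β → ‖α • x + β • b‖ = φ (α • x + β • b) := by
    intro α β hα hβ
    have e : φ (α • x + β • b) = α + β := by
      simp [hφx, hφb]
    apply le_antisymm
    · rw [e]
      calc ‖α • x + β • b‖ ≤ ‖α • x‖ + ‖β • b‖ := norm_add_le _ _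
        _ = α + β := by
          rw [norm_smul, norm_smul, hx, hb, Real.norm_of_nonneg hα, Real.norm_of_nonneg hβ]
          ring
    · exact hφle _
  have hli : LinearIndependent ℝ ![x, b] := by
    rw [LinearIndependent.pair_iff]
    intro s t hst
    have h1 : s + t = 0 := by
      have := congrArg φ hst
      simpa [hφx, hφb] using this
    have ht : t = -s := by linarith
    subst ht
    have h3 : s • (x - b) = 0 := by
      rw [smul_sub]
      rw [neg_smul] at hst
      rw [sub_eq_add_neg]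
      exact hst
    rcases smul_eq_zero.mp h3 with h | h
    · subst h
      simp
    · exact absurd (sub_eq_zero.mp h).symm hne
  have : FiniteDimensional ℝ E := FiniteDimensional.of_finrank_pos (by rw [h2]; norm_num)
  let B := basisOfLinearIndependentOfCardEqFinrank hli (by simp [h2])
  have hB0 : B 0 = x := by simp [B]
  have hB1 : B 1 = b := by simp [B]
  let c0 : E →L[ℝ] ℝ := LinearMap.toContinuousLinearMap (B.coord 0)
  let c1 : E →L[ℝ] ℝ := LinearMap.toContinuousLinearMap (B.coord 1)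
  have hrep : ∀ v : E, v = c0 v • x + c1 v • b := by
    intro v
    have := B.sum_repr v
    rw [Fin.sum_univ_two, hB0, hB1] at this
    exact this.symm
  refine ⟨?_, φ, min l (1 - l) / (‖c0‖ + ‖c1‖ + 1), ?_, ?_⟩
  · rw [hcone (1 - l) l (by linarith) hl0.le]
    simp [hφx, hφb]
  · have : 0 < min l (1 - l) := lt_min hl0 (by linarith)
    positivity
  · intro v hv
    have hK : 0 < ‖c0‖ + ‖c1‖ + 1 := by positivity
    have hv' : ‖v‖ * (‖c0‖ + ‖c1‖ + 1) < min l (1 - l) := (lt_div_iff₀ hK).mp hv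
    have h0 : |c0 v| ≤ ‖v‖ * (‖c0‖ + ‖c1‖ + 1) := by
      have := c0.le_opNorm v
      rw [Real.norm_eq_abs] at this
      nlinarith [norm_nonneg v, norm_nonneg c0, norm_nonneg c1]
    have h1 : |c1 v| ≤ ‖v‖ * (‖c0‖ + ‖c1‖ + 1) := by
      have := c1.le_opNorm v
      rw [Real.norm_eq_abs] at this
      nlinarith [norm_nonneg v, norm_nonneg c0, norm_nonneg c1]
    have e : (1 - l) • x + l • b + v = (1 - l + c0 v) • x + (l + c1 v) • b := by
      conv_lhs => rw [hrep v]
      rw [add_smul, add_smul]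
      abel
    rw [e]
    apply hcone
    · have := neg_abs_le (c0 v)
      have := min_le_right l (1 - l)
      linarith
    · have := neg_abs_le (c1 v)
      have := min_le_left l (1 - l)
      linarith

/-- UT2.  Sketch: if `x` is rotund take `a = x`.  Otherwise there is `b ≠ x`, `‖b‖ = 1`,
`‖x + b‖ = 2`; take `a = (1 - l) x + l b` with `l = min (1/2) (ε / 4)`: `‖a - x‖ = l ‖b - x‖ ≤ 2 l`;
use `seg_flat`. -/
lemma twoDim_dense (h2 : Module.finrank ℝ E = 2) :
    ∀ x : E, ‖x‖ = 1 → ∀ ε : ℝ, 0 < ε →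
      ∃ a : E, ‖a‖ = 1 ∧ ‖a - x‖ < ε ∧ (RotundPt a ∨ FlatPt a) := by
  intro x hx ε hε
  by_cases hr : RotundPt x
  · exact ⟨x, hx, by simpa using hε, Or.inl hr⟩
  · unfold RotundPt at hr
    push Not at hr
    obtain ⟨b, hb, hxb, hne⟩ := hr
    set l : ℝ := min (1 / 2) (ε / 4) with hl
    have hl0 : 0 < l := lt_min (by norm_num) (by positivity)
    have hl1 : l < 1 := lt_of_le_of_lt (min_le_left _ _) (by norm_num)
    have hl2 : l ≤ ε / 4 := min_le_right _ _
    obtain ⟨h1, h3⟩ := seg_flat h2 hx hb hxb hne hl0 hl1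
    refine ⟨(1 - l) • x + l • b, h1, ?_, Or.inr h3⟩
    have e : (1 - l) • x + l • b - x = l • (b - x) := by module
    rw [e, norm_smul, Real.norm_of_nonneg hl0.le]
    have h4 : ‖b - x‖ ≤ 2 := by
      calc ‖b - x‖ ≤ ‖b‖ + ‖x‖ := norm_sub_le _ _
        _ = 2 := by rw [hb, hx]; norm_num
    calc l * ‖b - x‖ ≤ (ε / 4) * 2 := mul_le_mul hl2 h4 (norm_nonneg _) (by positivity)
      _ < ε := by linarith

end Vale.Agent.P084
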