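import Vale.Agent.P084.U.Flat
import Vale.Agent.P084.U.Rot
import Vale.Agent.P084.U.Asm
import Vale.Agent.P084.U.TwoDim
import Vale.Agent.P084.ScInst

namespace Vale.Agent.P084

universe u v w

theorem u_raw {E : Type u} {F : Type v} {W : Type w}
    [NormedAddCommGroup E] [NormedSpace ℝ E] [NormedAddCommGroup F] [NormedSpace ℝ F]
    [NormedAddCommGroup W] [NormedSpace ℝ W]
    (hEn : ∃ e : E, ‖e‖ = 1) (hFn : ∃ s : F, ‖s‖ = 1)
    (hd : ∀ x : E, ‖x‖ = 1 → ∀ ε : ℝ, 0 < ε →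
      ∃ a : E, ‖a‖ = 1 ∧ ‖a - x‖ < ε ∧ (RotundPt a ∨ FlatPt a))
    {f : E × F → W} (hf : SphIso f) :
    ∃ T : E × F →L[ℝ] W, ∀ z, ‖z‖ = 1 → T z = f z := by
  apply asm_raw hEn hFn hf
  intro x hx ε hε
  obtain ⟨a, ha, hax, h⟩ := hd x hx ε hε
  refine ⟨a, ha, hax, ?_⟩
  rcases h with h | h
  · exact rot_good hf ha h
  · exact flat_good hf ha h

/-- `E ⊕_∞ F` has the Mazur-Ulam property if the rotund points and the flat points are dense in the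
unit sphere of `E`; `F` is arbitrary. -/
theorem u_mup (E : Type u) (F : Type v) [NormedAddCommGroup E] [NormedSpace ℝ E]
    [NormedAddCommGroup F] [NormedSpace ℝ F] [Nontrivial E] [Nontrivial F]
    (hd : ∀ x : E, ‖x‖ = 1 → ∀ ε : ℝ, 0 < ε →
      ∃ a : E, ‖a‖ = 1 ∧ ‖a - x‖ < ε ∧ (RotundPt a ∨ FlatPt a)) :
    MazurUlamProperty.{max u v, w} (E × F) := by
  intro Y _ _ f hf hs
  obtain ⟨e, he⟩ := exists_norm_eq E (zero_le_one' ℝ)
  obtain ⟨s, hs'⟩ := exists_norm_eq F (zero_le_one' ℝ)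
  exact equiv_of_raw (fun g hg => u_raw ⟨e, he⟩ ⟨s, hs'⟩ hd hg) f hf hs

end Vale.Agent.P084
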