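import Vale.Agent.P084.U.Main
import Vale.Agent.P084.Poly.Fin
import Vale.Agent.P084.Poly.KFinal

/-! Polyhedral spaces: the flat points are dense in the unit sphere. -/

namespace Vale.Agent.P084

open Metric Set

universe u v w

variable {ι : Type u} {Z : Type v} [NormedAddCommGroup Z] [NormedSpace ℝ Z]

/-- UP1.  Sketch: given `x`, take `φ, c, ρ` and `a = (1 - s) • x + s • c` with `s = min 1 (ε / 3)`.
`Flat.conv (hfl.le_norm hρ) hfl (by rw [hx, hφx]) hs0 hs1 : Flat φ a (s * ρ)` (see its use in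
`poly_raw`, Poly/Main.lean), `‖a‖ = φ a = 1` (`Flat.self`), `‖a - x‖ = s ‖c - x‖ ≤ 2 s < ε`. -/
lemma dense_of_facets
    (h : ∀ x : Z, ‖x‖ = 1 → ∃ (φ : Z →L[ℝ] ℝ) (c : Z) (ρ : ℝ),
      0 < ρ ∧ ‖c‖ = 1 ∧ Flat φ c ρ ∧ φ x = 1) :
    ∀ x : Z, ‖x‖ = 1 → ∀ ε : ℝ, 0 < ε →
      ∃ a : Z, ‖a‖ = 1 ∧ ‖a - x‖ < ε ∧ (RotundPt a ∨ FlatPt a) := by
  intro x hx ε hε
  obtain ⟨φ, c, ρ, hρ, hc, hfl, hφx⟩ := h x hx
  have hs0 : 0 < min 1 (ε / 3) := lt_min one_pos (by positivity)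
  have hs1 : min 1 (ε / 3) ≤ 1 := min_le_left _ _
  have hs2 : min 1 (ε / 3) ≤ ε / 3 := min_le_right _ _
  generalize min 1 (ε / 3) = s at hs0 hs1 hs2
  have hfa : Flat φ ((1 - s) • x + s • c) (s * ρ) :=
    Flat.conv (hfl.le_norm hρ) hfl (by rw [hx, hφx]) hs0 hs1
  have hφc : φ c = 1 := by rw [← hfl.self hρ, hc]
  refine ⟨(1 - s) • x + s • c, ?_, ?_, Or.inr ⟨φ, s * ρ, by positivity, hfa⟩⟩
  · rw [hfa.self (by positivity)]
    simp only [map_add, map_smul, smul_eq_mul, hφx, hφc]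
    ring
  · have e : (1 - s) • x + s • c - x = s • (c - x) := by module
    rw [e, norm_smul, Real.norm_of_nonneg hs0.le]
    have h2 : ‖c - x‖ ≤ 2 := by
      have := norm_sub_le c x
      rw [hc, hx] at this
      linarith
    nlinarith

/-- UP2.  Copy of the block `key` in `poly_fin_mup` (Poly/Fin.lean). -/
lemma fin_facets (φ : ι → Z →L[ℝ] ℝ)
    (hle : ∀ i x, φ i x ≤ ‖x‖)
    (hnorming : ∀ x : Z, ∀ ε : ℝ, 0 < ε → ∃ i, ‖x‖ - ε < φ i x)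
    (hgap : ∀ x : Z, ‖x‖ = 1 → ∃ δ : ℝ, 0 < δ ∧ ∀ i, φ i x = 1 ∨ φ i x ≤ 1 - δ)
    (hfin : ∀ x : Z, ‖x‖ = 1 → {i | φ i x = 1}.Finite) :
    ∀ x : Z, ‖x‖ = 1 → ∃ (ψ : Z →L[ℝ] ℝ) (c : Z) (ρ : ℝ),
      0 < ρ ∧ ‖c‖ = 1 ∧ Flat ψ c ρ ∧ ψ x = 1 := by
  classical
  have hact : ∀ x : Z, ‖x‖ = 1 → ∃ i, φ i x = 1 := by
    intro x hx
    obtain ⟨δ, hδ, hg⟩ := hgap x hx
    obtain ⟨i, hi⟩ := hnorming x δ hδ
    refine ⟨i, ?_⟩
    rcases hg i with h | h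
    · exact h
    · rw [hx] at hi; linarith
  intro x hx
  obtain ⟨δ, hδ, hg⟩ := hgap x hx
  obtain ⟨i, hi, y', r', h1, h2, h3⟩ := exists_face_interior φ hle (hfin x hx).toFinset x δ hx hδ
    (by
      intro z hz hzx
      obtain ⟨i, hi⟩ := hact z hz
      refine ⟨i, ?_, hi⟩
      rw [Set.Finite.mem_toFinset]
      rcases hg i with h | h
      · exact h
      · exfalso
        have := hle i (z - x)
        rw [map_sub, hi] at this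
        linarith)
  rw [Set.Finite.mem_toFinset] at hi
  exact ⟨φ i, y', min (r' / 2) 1, lt_min (by positivity) one_pos, h1, flat_of_interior h1 h3, hi⟩

lemma klee_facets [CompleteSpace Z]
    (h : ∀ E : Submodule ℝ Z, FiniteDimensional ℝ E →
      ∃ s : Finset Z, convexHull ℝ (s : Set Z) = closedBall 0 1 ∩ (E : Set Z)) :
    ∀ x : Z, ‖x‖ = 1 → ∃ (ψ : Z →L[ℝ] ℝ) (c : Z) (ρ : ℝ),
      0 < ρ ∧ ‖c‖ = 1 ∧ Flat ψ c ρ ∧ ψ x = 1 := by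
  intro x hx
  obtain ⟨φ, c, ρ, hρ, hc, hfl, hφx⟩ := exists_facet (polygonal_of_hull h) hx
  exact ⟨φ, c, ρ, hρ, hc, hfl, hφx⟩

end Vale.Agent.P084
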