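import Vale.Agent.P084.U.CK
import Vale.Agent.P084.U.PolyDense
import Vale.Agent.Results.P084.A0_Polyhedral

namespace Vale.Agent.P084

open Metric Set

universe u v w

/-- Polyhedral spaces: Banach spaces such that the unit ball of every finite-dimensional subspace
is a polytope; Banach spaces whose norm on every `span {x, y}` is a maximum of finitely many
functionals; normed spaces with a norming family of functionals such that at every unit vector only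
finitely many of them take the value one and the others are bounded away from one. -/
def PolyLike (Z : Type v) [NormedAddCommGroup Z] [NormedSpace ℝ Z] : Prop :=
  (CompleteSpace Z ∧ ∀ G : Submodule ℝ Z, FiniteDimensional ℝ G →
    ∃ s : Finset Z, convexHull ℝ (s : Set Z) = closedBall 0 1 ∩ (G : Set Z)) ∨
  (CompleteSpace Z ∧ ∀ x y : Z, ∃ s : Finset (Z →L[ℝ] ℝ), ∀ a b : ℝ,
    IsGreatest ((fun φ : Z →L[ℝ] ℝ => φ (a • x + b • y)) '' (s : Set (Z →L[ℝ] ℝ)))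
      ‖a • x + b • y‖) ∨
  ∃ (ι : Type v) (φ : ι → Z →L[ℝ] ℝ), (∀ i x, φ i x ≤ ‖x‖) ∧
    (∀ x : Z, ∀ ε : ℝ, 0 < ε → ∃ i, ‖x‖ - ε < φ i x) ∧
    (∀ x : Z, ‖x‖ = 1 → ∃ δ : ℝ, 0 < δ ∧ ∀ i, φ i x = 1 ∨ φ i x ≤ 1 - δ) ∧
    ∀ x : Z, ‖x‖ = 1 → {i | φ i x = 1}.Finite

/-- The admissible first summands. -/
def NiceSummand (E : Type v) [NormedAddCommGroup E] [NormedSpace ℝ E] : Prop :=
  StrictConvexSpace ℝ E ∨ Module.finrank ℝ E = 2 ∨ PolyLike E ∨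
  (∀ x : E, ‖x‖ = 1 → ∀ ε : ℝ, 0 < ε → ∃ a : E, ‖a‖ = 1 ∧ ‖a - x‖ < ε ∧
    ((∀ b : E, ‖b‖ = 1 → ‖a + b‖ = 2 → b = a) ∨
      ∃ (φ : E →L[ℝ] ℝ) (ρ : ℝ), 0 < ρ ∧ ∀ v : E, ‖v‖ < ρ → ‖a + v‖ = φ (a + v))) ∨
  ∃ Λ : Set (E →L[ℝ] ℝ), (∀ φ ∈ Λ, ∀ x, φ x ≤ ‖x‖) ∧
    (∀ x : E, ∀ ε : ℝ, 0 < ε → ∃ φ ∈ Λ, ‖x‖ - ε < φ x) ∧
    ∀ φ ∈ Λ, ∀ x, ‖x‖ ≤ 1 → ∃ c, ‖c‖ ≤ 1 ∧ φ c = 1 ∧ ‖x - c‖ ≤ 1 - φ x

theorem polyLike_mup (Z : Type v) [NormedAddCommGroup Z] [NormedSpace ℝ Z] (h : PolyLike Z) :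
    MazurUlamProperty.{v, w} Z := by
  rcases h with ⟨hc, h⟩ | ⟨hc, h⟩ | ⟨ι, φ, h1, h2, h3, h4⟩
  · exact klee_mup h
  · exact polygonal_mup h
  · exact Vale.Agent.Results.P084.A0_Polyhedral.result.{v, v, w}.2.2.1 ι Z φ h1 h2 h3 h4

theorem nice_mup (E : Type u) (F : Type v) [NormedAddCommGroup E] [NormedSpace ℝ E]
    [NormedAddCommGroup F] [NormedSpace ℝ F] [Nontrivial E] [Nontrivial F] (h : NiceSummand E) :
    MazurUlamProperty.{max u v, w} (E × F) := by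
  rcases h with h | h | h | h | ⟨Λ, h1, h2, h3⟩
  · exact sc_mup' E F
  · exact u_mup E F (twoDim_dense h)
  · rcases h with ⟨hc, h⟩ | ⟨hc, h⟩ | ⟨ι, φ, h1, h2, h3, h4⟩
    · exact u_mup E F (dense_of_facets (klee_facets h))
    · exact u_mup E F (dense_of_facets (fun _ hx => exists_facet h hx))
    · exact u_mup E F (dense_of_facets (fin_facets φ h1 h2 h3 h4))
  · exact u_mup E F h
  · exact gl_mup E F Λ h1 h2 h3

end Vale.Agent.P084
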